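import Vale.Agent.P315.Logic

/-! Final statements: truly subquadratic approximation of the edit distance on the word RAM of
`Model.lean`. -/

set_option autoImplicit false

namespace Vale.Agent.P315.Top

open Vale.Agent.P315

/-- `Solves P good t k`: on all inputs `x, y` with `n = max |x| |y|`, for every word length `b`
with `(n + 2) ^ k ≤ 2 ^ b` and symbols below `2 ^ b`: (1) for every tape of random words the
program `P` halts within `t n` steps, all numbers staying below `2 ^ b`; (2) for at least `2/3` of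
the tapes (of any length `T ≥ t n`) the final content `D` of register `2` satisfies
`good x y D`. -/
def Solves (P : Prog) (good : List ℕ → List ℕ → ℕ → Prop) (t : ℕ → ℝ) (k : ℕ) : Prop :=
  ∀ (x y : List ℕ) (n b : ℕ), n = max x.length y.length → (n + 2) ^ k ≤ 2 ^ b →
    (∀ a ∈ x ++ y, a < 2 ^ b) →
    (∀ ρ : ℕ → ℕ, (∀ i, ρ i < 2 ^ b) → ∃ (m : ℕ) (s : State),
      Exec (2 ^ b) ρ P (State.init x y) m s ∧ (m : ℝ) ≤ t n) ∧
    ∀ T : ℕ, t n ≤ T →
      2 * Nat.card (Fin T → Fin (2 ^ b)) ≤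
        3 * Nat.card {ρ : Fin T → Fin (2 ^ b) // ∃ (m : ℕ) (s : State),
          Exec (2 ^ b) (tape ρ) P (State.init x y) m s ∧ good x y (s.reg 2)}

/-- Additive form: for every `ε > 0` there is a truly subquadratic algorithm whose output is never
too small and at most `ε n` too large, with probability at least `2/3`. -/
def StmtAdd : Prop :=
  ∀ ε : ℝ, 0 < ε → ∃ δ : ℝ, 0 < δ ∧ ∃ (C : ℝ) (k : ℕ) (P : Prog),
    Solves P (fun x y D => ED x y ≤ D ∧
      (D : ℝ) ≤ ED x y + ε * ((max x.length y.length : ℕ) : ℝ))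
      (fun n => C * ((n : ℝ) + 1) ^ (2 - δ)) k

/-- Multiplicative form: for every `ε > 0` there is a truly subquadratic
`(1 + ε)`-approximation algorithm for the edit distance. -/
def StmtMul : Prop :=
  ∀ ε : ℝ, 0 < ε → ∃ δ : ℝ, 0 < δ ∧ ∃ (C : ℝ) (k : ℕ) (P : Prog),
    Solves P (fun x y D => ED x y ≤ D ∧ (D : ℝ) ≤ (1 + ε) * ED x y)
      (fun n => C * ((n : ℝ) + 1) ^ (2 - δ)) k

/-- The functional form that the RAM blocks deliver: all numbers stay below `2 ^ b`, the time is
at most `t n` on every tape, and two thirds of the tapes of length `T` are good whenever `T`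
bounds the number of random words used. -/
theorem solves_of_run {P : Prog} {good : List ℕ → List ℕ → ℕ → Prop} {t : ℕ → ℝ} {k : ℕ}
    (h : ∀ (x y : List ℕ) (n b : ℕ), n = max x.length y.length → (n + 2) ^ k ≤ 2 ^ b →
      (∀ a ∈ x ++ y, a < 2 ^ b) →
      (∀ ρ : ℕ → ℕ, (∀ i, ρ i < 2 ^ b) →
        P.top ρ (State.init x y) < 2 ^ b ∧ (P.time ρ (State.init x y) : ℝ) ≤ t n) ∧
      ∀ T : ℕ, (∀ ρ : ℕ → ℕ, (∀ i, ρ i < 2 ^ b) → (P.run ρ (State.init x y)).coins ≤ T) →
        2 * Nat.card (Fin T → Fin (2 ^ b)) ≤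
          3 * Nat.card {ρ : Fin T → Fin (2 ^ b) // good x y (P.output (tape ρ) x y)}) :
    Solves P good t k := by
  intro x y n b hn hb hsym
  obtain ⟨h1, h2⟩ := h x y n b hn hb hsym
  have hN : 0 < 2 ^ b := Nat.pow_pos (by norm_num)
  have hex : ∀ ρ : ℕ → ℕ, (∀ i, ρ i < 2 ^ b) →
      Exec (2 ^ b) ρ P (State.init x y) (P.time ρ (State.init x y)) (P.run ρ (State.init x y)) :=
    fun ρ hρ => exec_of_top hN P _ (h1 ρ hρ).1
  have htape : ∀ {T : ℕ} (ρ : Fin T → Fin (2 ^ b)) (i : ℕ), tape ρ i < 2 ^ b := by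
    intro T ρ i
    unfold tape
    split_ifs with h
    · exact (ρ ⟨i, h⟩).isLt
    · exact hN
  refine ⟨fun ρ hρ => ⟨_, _, hex ρ hρ, (h1 ρ hρ).2⟩, fun T hT => ?_⟩
  refine (h2 T (fun ρ hρ => ?_)).trans (Nat.mul_le_mul_left _ ?_)
  · have h3 := P.coins_le ρ (State.init x y)
    have h0 : (State.init x y).coins = 0 := rfl
    rw [h0, Nat.zero_add] at h3
    have h4 : ((P.run ρ (State.init x y)).coins : ℝ) ≤ T :=
      (Nat.cast_le.mpr h3).trans ((h1 ρ hρ).2.trans hT)
    exact_mod_cast h4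
  · have himp : ∀ z : Fin T → Fin (2 ^ b), good x y (P.output (tape z) x y) →
        ∃ (m : ℕ) (s : State), Exec (2 ^ b) (tape z) P (State.init x y) m s ∧
          good x y (s.reg 2) :=
      fun z hz => ⟨_, _, hex _ (htape z), hz⟩
    refine Nat.card_le_card_of_injective (Subtype.map id himp) ?_
    intro z z' hz
    apply Subtype.ext
    simpa [Subtype.map] using congrArg Subtype.val hz

end Vale.Agent.P315.Top
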