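import Vale.Agent.P315.H784.Budget

/-!
P315, T-TOP: the side conditions of the query theorem hold for all long inputs, for the number of
levels `lev`, the number of scales `scalN` and the mesh ratio `2 ^ (L / w)`.
-/

set_option autoImplicit false

open Finset

namespace Vale.Agent.P315.Top

open Vale.Agent.P315.H809

/-- A polynomial is smaller than an exponential. -/
theorem exists_poly_le_two_pow (a C d : ℕ) : ∃ t0 : ℕ, ∀ t : ℕ, t0 ≤ t →
    C * (d * (t + 1)) ^ a ≤ 2 ^ t := by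
  have h1 := tendsto_pow_const_div_const_pow_of_one_lt (r := (2 : ℝ)) a one_lt_two
  have hk : (0 : ℝ) < 1 / (C * (2 * d) ^ a + 1) := by positivity
  have h2 := h1.eventually (gt_mem_nhds hk)
  rw [Filter.eventually_atTop] at h2
  obtain ⟨t0, h0⟩ := h2
  refine ⟨max t0 1, fun t ht => ?_⟩
  have h3 := h0 t ((le_max_left _ _).trans ht)
  have h4 : 1 ≤ t := (le_max_right _ _).trans ht
  have h5 : (0 : ℝ) < (C : ℝ) * (2 * d) ^ a + 1 := by positivity
  rw [div_lt_div_iff₀ (by positivity) h5, one_mul] at h3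
  have h6 : ((C * (d * (t + 1)) ^ a : ℕ) : ℝ) ≤ ((2 ^ t : ℕ) : ℝ) := by
    push_cast
    have h7 : ((d : ℝ) * (t + 1)) ^ a ≤ (2 * d * t) ^ a := by
      apply pow_le_pow_left₀ (by positivity)
      have : (1 : ℝ) ≤ t := by exact_mod_cast h4
      have hd : (0 : ℝ) ≤ d := Nat.cast_nonneg _
      nlinarith
    calc (C : ℝ) * (d * (t + 1)) ^ a ≤ C * (2 * d * t) ^ a :=
          mul_le_mul_of_nonneg_left h7 (Nat.cast_nonneg _)
      _ = (C * (2 * d) ^ a) * t ^ a := by rw [mul_pow]; ring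
      _ ≤ (C * (2 * d) ^ a + 1) * t ^ a := by
          apply mul_le_mul_of_nonneg_right _ (by positivity)
          linarith
      _ = t ^ a * (C * (2 * d) ^ a + 1) := mul_comm _ _
      _ ≤ 2 ^ t := h3.le
  exact_mod_cast h6

/-- The number of scales is at most logarithmic in the number of levels. -/
theorem two_pow_scalN_le_lev {B M q N : ℕ} (hB : 2 ≤ B)
    (h : 2 ^ scalN B M q N ≤ lev B M q N) :
    2 ^ scalN B M q N ≤ 6 * (Nat.log 2 (lev B M q N + 2) + 2) := by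
  have h1 : 2 ^ scalN B M q N ≤ 6 * (Nat.log 2 (lev0 M q N + 2) + 1) := two_pow_scal_le hB _
  have h2 := lev0_lt B M q N
  have h3 : Nat.log 2 (lev0 M q N + 2) ≤ Nat.log 2 (lev B M q N + 2) + 1 := by
    rw [← Nat.log_mul_base (by norm_num) (by omega : lev B M q N + 2 ≠ 0)]
    exact Nat.log_mono_right (by omega)
  omega

/-- **The side conditions** of the query theorem. -/
theorem exists_side {B M q : ℕ} (hB : 2 ≤ B) (hM : 2 ≤ M) (hq : 1 ≤ q) (w m a₀ n₀ : ℕ)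
    (hw : 1 ≤ w) : ∃ N0 : ℕ, ∀ N : ℕ, N0 ≤ N →
      n₀ ≤ lev B M q N ∧ 2 ^ scalN B M q N ∣ lev B M q N ∧
      (lev B M q N + 2) ^ 3 ≤ B ^ 2 ^ scalN B M q N ∧
      2 ^ scalN B M q N ≤ 6 * (Nat.log 2 (lev B M q N + 2) + 2) ∧
      2 ^ (2 * m * 2 ^ scalN B M q N) ∣ 2 ^ (lev B M q N / w) ∧
      12 * (a₀ * (lev B M q N + 2) ^ a₀) ≤ 2 ^ (lev B M q N / w) := by
  obtain ⟨t0, ht0⟩ := exists_poly_le_two_pow a₀ (12 * a₀) (w + 2)
  obtain ⟨N1, hN1⟩ := Par.exists_large hB hM hq ((n₀ : ℝ) + w * t0) (η := 1) one_pos 0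
  obtain ⟨N2, hN2⟩ := Par.exists_large hB hM hq (((2 * m * w + 1 : ℕ) : ℝ)) (η := 1) one_pos 1
  refine ⟨max N1 N2, fun N hN => ?_⟩
  have h1 := hN1 N ((le_max_left _ _).trans hN)
  have h2 := hN2 N ((le_max_right _ _).trans hN)
  rw [pow_zero, mul_one, one_mul] at h1
  rw [pow_one, one_mul] at h2
  have h1' : n₀ + w * t0 ≤ lev B M q N := by exact_mod_cast h1
  have h2' : (2 * m * w + 1) * 2 ^ scalN B M q N ≤ lev B M q N := by exact_mod_cast h2
  have h3 : 2 ^ scalN B M q N ≤ lev B M q N := by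
    refine le_trans ?_ h2'
    exact Nat.le_mul_of_pos_left _ (by omega)
  refine ⟨by omega, two_pow_dvd_lev _ _ _ _, cube_le hB _ _ _, two_pow_scalN_le_lev hB h3, ?_, ?_⟩
  · apply pow_dvd_pow
    rw [Nat.le_div_iff_mul_le (by omega)]
    calc 2 * m * 2 ^ scalN B M q N * w = (2 * m * w) * 2 ^ scalN B M q N := by ring
      _ ≤ (2 * m * w + 1) * 2 ^ scalN B M q N := Nat.mul_le_mul_right _ (by omega)
      _ ≤ _ := h2'
  · set L := lev B M q N with hL
    have h4 : t0 ≤ L / w := by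
      rw [Nat.le_div_iff_mul_le (by omega)]
      calc t0 * w = w * t0 := mul_comm _ _
        _ ≤ L := by omega
    have h5 := ht0 (L / w) h4
    have h6 : L + 2 ≤ (w + 2) * (L / w + 1) := by
      have := Nat.lt_mul_div_succ L (show 0 < w by omega)
      nlinarith [Nat.zero_le (L / w)]
    calc 12 * (a₀ * (L + 2) ^ a₀) = 12 * a₀ * (L + 2) ^ a₀ := by ring
      _ ≤ 12 * a₀ * ((w + 2) * (L / w + 1)) ^ a₀ :=
          Nat.mul_le_mul_left _ (Nat.pow_le_pow_left h6 _)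
      _ ≤ _ := h5

/-- A fixed power of the number of rows is much smaller than the length. -/
theorem exists_rows_small {B M : ℕ} (hB : 2 ≤ B) (hM : 2 ≤ M) (q r : ℕ) (hr : r < q) (C : ℝ)
    {η : ℝ} (hη : 0 < η) : ∃ N0 : ℕ, ∀ N : ℕ, N0 ≤ N →
      C * ((M ^ lev B M q N : ℕ) : ℝ) ^ r ≤ η * N := by
  have hq : 1 ≤ q := by omega
  obtain ⟨A, hA⟩ := exists_nat_ge (2 * |C| / η)
  -- `K ≥ L > A`
  obtain ⟨N1, hN1⟩ := Par.exists_large hB hM hq (A : ℝ) (η := 1) one_pos 0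
  refine ⟨max N1 1, fun N hN => ?_⟩
  have h1 := hN1 N ((le_max_left _ _).trans hN)
  have hN1' : 1 ≤ N := (le_max_right _ _).trans hN
  rw [pow_zero, mul_one, one_mul] at h1
  set K := M ^ lev B M q N with hK
  have h2 : lev B M q N < K :=
    lt_of_lt_of_le Nat.lt_two_pow_self (Nat.pow_le_pow_left hM _)
  have h3 : (A : ℝ) ≤ K := by
    have : (lev B M q N : ℝ) ≤ K := by exact_mod_cast h2.le
    linarith
  have hK1 : 1 ≤ K := Nat.one_le_pow _ _ (by omega)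
  have hK1' : (1 : ℝ) ≤ K := by exact_mod_cast hK1
  have h4 : K ^ q ≤ N + 1 := by
    rw [hK, ← pow_mul, Nat.mul_comm]
    exact rows_pow_le B q N
  have h5 : (K : ℝ) ^ (r + 1) ≤ N + 1 := by
    have : K ^ (r + 1) ≤ K ^ q := Nat.pow_le_pow_right hK1 (by omega)
    exact_mod_cast this.trans h4
  have h6 : 2 * |C| ≤ η * K := by
    rw [div_le_iff₀ hη] at hA
    nlinarith
  have h7 : (1 : ℝ) ≤ N := by exact_mod_cast hN1'
  have h8 : 0 ≤ (K : ℝ) ^ r := by positivity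
  have h9 : C * (K : ℝ) ^ r ≤ |C| * (K : ℝ) ^ r := mul_le_mul_of_nonneg_right (le_abs_self C) h8
  have h10 : 2 * |C| * (K : ℝ) ^ r ≤ η * (N + 1) := by
    calc 2 * |C| * (K : ℝ) ^ r ≤ η * K * (K : ℝ) ^ r := mul_le_mul_of_nonneg_right h6 h8
      _ = η * (K : ℝ) ^ (r + 1) := by rw [pow_succ]; ring
      _ ≤ η * (N + 1) := mul_le_mul_of_nonneg_left h5 hη.le
  nlinarith

end Vale.Agent.P315.Top
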