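import Vale.Agent.P315.Top.Assemble
import Vale.Agent.P315.Top.Num

/-!
P315, T-TOP: from the query theorem `StmtQT` to the statement that two thirds of the seeds are
good, for all long inputs.
-/

set_option autoImplicit false

open Finset

namespace Vale.Agent.P315.Top

open Vale.Agent.P315 Vale.Agent.P315.C Vale.Agent.P315.H248 Vale.Agent.P315.H731

open Vale.Agent.P315.H659 (nSeed rndOf arrOf)

/-- The shape of the family of parameters. -/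
structure FamBox (fam : (m k cd n S ℓ μ B : ℕ) → QPar) : Prop where
  P_eq : ∀ m k cd n S ℓ μ B, ∃ H, (fam m k cd n S ℓ μ B).P =
    boxPar (2 ^ (20 * m)) ℓ μ B (2 ^ k - 1) (S + 1) H
  n_eq : ∀ m k cd n S ℓ μ B, (fam m k cd n S ℓ μ B).n = n
  q_pos : ∀ m k cd n S ℓ μ B, 0 < (fam m k cd n S ℓ μ B).q

/-- The error of the value: `K = M ^ L` rows, mesh ratio `mc`. -/
theorem error_le {N K mc μ ℓ : ℕ} {ε : ℝ} (hε : 0 < ε) (hK : 1 ≤ K) (hmc : 1 ≤ mc)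
    (hμ : μ = N / (K * mc) + 1) (hℓ : ℓ = mc * μ) (hmK : mc ≤ K)
    (h1 : 768 ≤ ε * mc) (h2 : 96 * ((1 + ε) * (K : ℝ) ^ 2) ≤ ε * N) :
    6 * (2 + (K : ℝ) * (8 * μ + 2) + ε / 96 * (ℓ * K)) ≤ ε * (N / 2) := by
  have hK' : (1 : ℝ) ≤ K := by exact_mod_cast hK
  have hmc' : (1 : ℝ) ≤ mc := by exact_mod_cast hmc
  have hmK' : (mc : ℝ) ≤ K := by exact_mod_cast hmK
  have hN0 : (0 : ℝ) ≤ N := Nat.cast_nonneg _
  have e1 : (K : ℝ) * μ ≤ N / mc + K := by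
    have : K * mc * μ ≤ N + K * mc := by
      rw [hμ, Nat.mul_add, Nat.mul_one]
      exact Nat.add_le_add_right (Nat.mul_div_le _ _) _
    have h : (K : ℝ) * mc * μ ≤ N + K * mc := by exact_mod_cast this
    have hmc0 : (0 : ℝ) < mc := by linarith
    rw [div_add' _ _ _ hmc0.ne', le_div_iff₀ hmc0]
    linarith
  have e2 : (ℓ : ℝ) * K ≤ N + K * mc := by
    have : K * mc * μ ≤ N + K * mc := by
      rw [hμ, Nat.mul_add, Nat.mul_one]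
      exact Nat.add_le_add_right (Nat.mul_div_le _ _) _
    have h : (K : ℝ) * mc * μ ≤ N + K * mc := by exact_mod_cast this
    rw [hℓ]; push_cast; linarith
  have e3 : (N : ℝ) / mc ≤ ε * N / 768 := by
    rw [div_le_div_iff₀ (by linarith) (by norm_num)]
    nlinarith
  have e4 : (K : ℝ) * mc ≤ (K : ℝ) ^ 2 := by nlinarith
  have e5 : (K : ℝ) ≤ (K : ℝ) ^ 2 := by nlinarith
  have e6 : (1 : ℝ) ≤ (K : ℝ) ^ 2 := by nlinarith
  have e7 : ε / 96 * ((ℓ : ℝ) * K) ≤ ε / 96 * (N + (K : ℝ) ^ 2) :=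
    mul_le_mul_of_nonneg_left (by linarith) (by positivity)
  nlinarith

/-- The number of rounds is at least six times the mean number of reads. -/
theorem reads_le {c A : ℝ} (hc : 0 < c) {h C0 : ℕ} (hh : 1 / c ≤ h) (hC0 : 12 * |A| ≤ C0)
    (K L : ℕ) : 6 * (A * ((K : ℝ) ^ 2 * Real.exp (-c * L))) ≤
      (((C0 + 1) * (K ^ 2 / 2 ^ (L / (h + 1)) + 1) : ℕ) : ℝ) := by
  have e1 : Real.exp (-c * L) ≤ 1 / (2 : ℝ) ^ (L / (h + 1)) := by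
    have hp : (0 : ℝ) < (2 : ℝ) ^ (L / (h + 1)) := by positivity
    rw [neg_mul, Real.exp_neg, ← one_div]
    apply one_div_le_one_div_of_le hp
    rw [← Real.rpow_natCast, Real.rpow_def_of_pos (by norm_num)]
    apply Real.exp_le_exp.2
    have h1 : ((L / (h + 1) : ℕ) : ℝ) ≤ (L : ℝ) / (h + 1) := by
      have := @Nat.cast_div_le ℝ _ _ _ L (h + 1)
      push_cast at this
      exact this
    have hL0 : (0 : ℝ) ≤ L := Nat.cast_nonneg _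
    have hh1 : (0 : ℝ) < (h : ℝ) + 1 := by positivity
    have hl2 : Real.log 2 ≤ 1 := by
      have := Real.log_two_lt_d9; linarith
    have hl0 : 0 < Real.log 2 := Real.log_pos (by norm_num)
    have h2 : (L : ℝ) / (h + 1) ≤ c * L := by
      rw [div_le_iff₀ hh1]
      have h3 : 1 ≤ c * (h + 1) := by
        rw [div_le_iff₀ hc] at hh
        nlinarith
      nlinarith
    have h4 : (0 : ℝ) ≤ ((L / (h + 1) : ℕ) : ℝ) := Nat.cast_nonneg _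
    nlinarith
  have e2 : (K : ℝ) ^ 2 / 2 ^ (L / (h + 1)) ≤ ((K ^ 2 / 2 ^ (L / (h + 1)) : ℕ) : ℝ) + 1 := by
    have hp : (0 : ℝ) < (2 : ℝ) ^ (L / (h + 1)) := by positivity
    rw [div_le_iff₀ hp]
    have := Nat.lt_mul_div_succ (K ^ 2) (show 0 < 2 ^ (L / (h + 1)) by positivity)
    have h3 : ((K ^ 2 : ℕ) : ℝ) <
        ((2 ^ (L / (h + 1)) * (K ^ 2 / 2 ^ (L / (h + 1)) + 1) : ℕ) : ℝ) := by
      exact_mod_cast this
    push_cast at h3 ⊢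
    linarith
  have e3 : A ≤ |A| := le_abs_self A
  have e4 : 0 ≤ (K : ℝ) ^ 2 * Real.exp (-c * L) := by positivity
  have e5 : (K : ℝ) ^ 2 * Real.exp (-c * L) ≤ ((K ^ 2 / 2 ^ (L / (h + 1)) : ℕ) : ℝ) + 1 := by
    refine le_trans ?_ e2
    calc (K : ℝ) ^ 2 * Real.exp (-c * L) ≤ (K : ℝ) ^ 2 * (1 / (2 : ℝ) ^ (L / (h + 1))) :=
          mul_le_mul_of_nonneg_left e1 (by positivity)
      _ = _ := by ring
  have e6 : 0 ≤ |A| := abs_nonneg A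
  set V : ℝ := ((K ^ 2 / 2 ^ (L / (h + 1)) : ℕ) : ℝ) with hV
  have hV0 : 0 ≤ V := Nat.cast_nonneg _
  have e7 : (((C0 + 1) * (K ^ 2 / 2 ^ (L / (h + 1)) + 1) : ℕ) : ℝ) = ((C0 : ℝ) + 1) * (V + 1) := by
    rw [hV]; push_cast; rfl
  rw [e7]
  calc 6 * (A * ((K : ℝ) ^ 2 * Real.exp (-c * L))) ≤ 6 * (|A| * (V + 1)) := by
        have := mul_le_mul e3 e5 e4 e6
        linarith
    _ ≤ ((C0 : ℝ) + 1) * (V + 1) := by nlinarith

/-- The parameters of a long input: `K = M ^ L` rows, mesh ratio `mc`, row length `ℓ`. -/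
theorem params_facts {N M L mc μ ℓ : ℕ} (hM : 2 ≤ M) (hmc : 1 ≤ mc) (hmcL : mc ≤ 2 ^ L)
    (hμ : μ = N / (M ^ L * mc) + 1) (hℓ : ℓ = mc * μ) :
    1 ≤ μ ∧ 1 ≤ M ^ L ∧ 1 ≤ ℓ ∧ μ ∣ ℓ ∧ ℓ / μ = mc ∧ N ≤ M ^ L * ℓ ∧ mc ≤ M ^ L := by
  have hμ1 : 1 ≤ μ := by rw [hμ]; exact Nat.le_add_left _ _
  have hK1 : 1 ≤ M ^ L := Nat.one_le_pow _ _ (by omega)
  refine ⟨hμ1, hK1, ?_, ?_, ?_, ?_, ?_⟩
  · rw [hℓ]; exact Nat.mul_pos hmc hμ1
  · rw [hℓ]; exact Dvd.intro_left _ rfl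
  · rw [hℓ]; exact Nat.mul_div_cancel _ hμ1
  · have h1 : 0 < M ^ L * mc := Nat.mul_pos hK1 hmc
    have h2 := Nat.lt_mul_div_succ N h1
    rw [hℓ, hμ, ← Nat.mul_assoc]
    exact h2.le
  · exact hmcL.trans (Nat.pow_le_pow_left hM _)

/-- The loss of the instance is small enough. -/
theorem loss_facts {L a₀ mc μ ℓ : ℕ} (h : 12 * ((a₀ + 1) * (L + 2) ^ (a₀ + 1)) ≤ mc)
    (hμ1 : 1 ≤ μ) (hℓ : ℓ = mc * μ) (hℓ1 : 1 ≤ ℓ) :
    a₀ * (L + 2) ^ a₀ * μ ≤ ℓ ∧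
      (a₀ : ℝ) * ((L : ℝ) + 2) ^ a₀ * ((8 * μ + 4) / ℓ) ≤ 1 := by
  have hs6 : a₀ * (L + 2) ^ a₀ * 12 ≤ mc := by
    refine le_trans ?_ h
    calc a₀ * (L + 2) ^ a₀ * 12 = 12 * (a₀ * (L + 2) ^ a₀) := mul_comm _ _
      _ ≤ 12 * ((a₀ + 1) * (L + 2) ^ (a₀ + 1)) :=
        Nat.mul_le_mul_left _ (Nat.mul_le_mul (by omega)
          (Nat.pow_le_pow_right (by omega) (by omega)))
  constructor
  · rw [hℓ]
    refine Nat.mul_le_mul_right _ (le_trans ?_ hs6)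
    omega
  · have hℓ' : (0 : ℝ) < ℓ := by exact_mod_cast hℓ1
    rw [← mul_div_assoc, div_le_one hℓ']
    have h3 : a₀ * (L + 2) ^ a₀ * (8 * μ + 4) ≤ ℓ := by
      rw [hℓ]
      calc a₀ * (L + 2) ^ a₀ * (8 * μ + 4) ≤ a₀ * (L + 2) ^ a₀ * (12 * μ) :=
            Nat.mul_le_mul_left _ (by omega)
        _ = a₀ * (L + 2) ^ a₀ * 12 * μ := by ring
        _ ≤ mc * μ := Nat.mul_le_mul_right _ hs6
    exact_mod_cast h3

/-- One input, one choice of the parameters. -/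
theorem good_one {F : QPar} {M k S H L μ ℓ mc Qr Ns h C0 b₀ : ℕ} {x y : List ℕ} {ε c A : ℝ}
    (hε : 0 < ε) (hP : F.P = boxPar M ℓ μ (M ^ L * ℓ) k S H) (hn : F.n = L) (hq0 : 0 < F.q)
    (hGood : F.Good ((8 * μ + 4) / ℓ) (ε / 96)
      (A * (((M ^ L : ℕ) : ℝ) ^ 2 * Real.exp (-c * L))))
    (hM : 2 ≤ M) (hmc : 1 ≤ mc) (hmcL : mc ≤ 2 ^ L)
    (hμ : μ = (x.length + y.length) / (M ^ L * mc) + 1) (hℓ : ℓ = mc * μ)
    (hQr : Qr = (C0 + 1) * ((M ^ L) ^ 2 / 2 ^ (L / (h + 1)) + 1))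
    (hc : 0 < c) (hh : 1 / c ≤ h) (hC0 : 12 * |A| ≤ C0) (hb₀ : 768 / ε ≤ b₀) (hb : b₀ ≤ mc)
    (hK2 : 96 * (1 + ε) * ((M ^ L : ℕ) : ℝ) ^ 2 ≤ ε * ((x.length + y.length : ℕ) : ℝ))
    (hNs : nSeed L M S F.Cn ≤ Ns) (out : (Fin Ns → Fin F.q) → ℕ)
    (hout : ∀ c, ∃ R : Finset (ℕ × ℕ),
      out c = cval (boxPar M ℓ μ (M ^ L * ℓ) k S H) (visW ℓ) (hidS x y ℓ) R L 0 0
        (vend x y (M ^ L * ℓ)) + 1 ∧
      ((rd (boxPar M ℓ μ (M ^ L * ℓ) k S H) F.mc (rndOf L M S F.Cn k (arrOf c))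
          (visW ℓ) (hidS x y ℓ) L 0 0 F.N).card ≤ Qr →
        R = rd (boxPar M ℓ μ (M ^ L * ℓ) k S H) F.mc (rndOf L M S F.Cn k (arrOf c))
          (visW ℓ) (hidS x y ℓ) L 0 0 F.N)) :
    2 * Nat.card (Fin Ns → Fin F.q) ≤ 3 * Nat.card {c : Fin Ns → Fin F.q //
      ED x y ≤ out c ∧ (out c : ℝ) ≤ ED x y + ε * ((max x.length y.length : ℕ) : ℝ)} := by
  obtain ⟨hμ1, hK1, hℓ1, hdvd, hdiv, hcov, hmK⟩ := params_facts hM hmc hmcL hμ hℓ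
  have hE : 6 * (2 + ((M ^ L : ℕ) : ℝ) * (8 * μ + 2) + ε / 96 * (ℓ * ((M ^ L : ℕ) : ℝ))) ≤
      ε * (((x.length + y.length : ℕ) : ℝ) / 2) := by
    apply error_le hε hK1 hmc hμ hℓ hmK
    · have h4 : (b₀ : ℝ) ≤ mc := by exact_mod_cast hb
      have h5 : 768 / ε ≤ mc := hb₀.trans h4
      rw [div_le_iff₀ hε] at h5
      linarith
    · calc 96 * ((1 + ε) * ((M ^ L : ℕ) : ℝ) ^ 2) = 96 * (1 + ε) * ((M ^ L : ℕ) : ℝ) ^ 2 := by
            ring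
        _ ≤ _ := hK2
  have hNn : ((x.length + y.length : ℕ) : ℝ) / 2 ≤ ((max x.length y.length : ℕ) : ℝ) := by
    have : x.length + y.length ≤ 2 * max x.length y.length := by
      have := le_max_left x.length y.length
      have := le_max_right x.length y.length
      omega
    have h3 : ((x.length + y.length : ℕ) : ℝ) ≤ ((2 * max x.length y.length : ℕ) : ℝ) :=
      Nat.cast_le.2 this
    rw [Nat.cast_mul] at h3
    push_cast at h3 ⊢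
    linarith
  have hE' := hE.trans (mul_le_mul_of_nonneg_left hNn hε.le)
  have hmax : (0 : ℝ) < ε * ((max x.length y.length : ℕ) : ℝ) := by
    have h8 : 0 < 6 * (2 + ((M ^ L : ℕ) : ℝ) * (8 * μ + 2) +
      ε / 96 * (ℓ * ((M ^ L : ℕ) : ℝ))) := by positivity
    exact lt_of_lt_of_le h8 hE'
  have hQpos : 0 < Qr := by
    rw [hQr]; exact Nat.mul_pos (Nat.succ_pos _) (Nat.succ_pos _)
  have hA : 6 * (A * (((M ^ L : ℕ) : ℝ) ^ 2 * Real.exp (-c * L))) ≤ (Qr : ℝ) := by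
    rw [hQr]
    exact reads_le hc hh hC0 (M ^ L) L
  obtain ⟨P, mach, n', Nr, Cn, qs⟩ := F
  simp only at hP hn hq0 hNs hout out hGood ⊢
  subst hn
  refine good_seeds_QPar (Q := ⟨P, mach, n', Nr, Cn, qs⟩) hP hGood x y (by omega) hμ1 hdvd hℓ1
    hcov le_rfl hq0 hNs out (Qr := Qr) hout hmax ?_ hQpos hA
  refine le_trans (le_of_eq ?_) hE'
  push_cast
  ring

/-- **Two thirds of the seeds are good**, for all long inputs. -/
theorem good_of_QT {fam : (m k cd n S ℓ μ B : ℕ) → QPar} (hQT : StmtQT fam) (hfam : FamBox fam)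
    {ε : ℝ} (hε : 0 < ε) :
    ∃ m k cd h C0 : ℕ, 1 ≤ m ∧ 1 ≤ h ∧ 1 ≤ C0 ∧ ∀ w q : ℕ, 1 ≤ w → 3 ≤ q →
      ∃ N0 : ℕ, ∀ (x y : List ℕ) (L S μ ℓ Qr Ns : ℕ), N0 ≤ x.length + y.length →
        L = H809.lev (2 ^ m) (2 ^ (20 * m)) q (x.length + y.length) →
        S = H809.scalN (2 ^ m) (2 ^ (20 * m)) q (x.length + y.length) →
        μ = (x.length + y.length) / ((2 ^ (20 * m)) ^ L * 2 ^ (L / w)) + 1 →
        ℓ = 2 ^ (L / w) * μ →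
        Qr = C0 * (((2 ^ (20 * m)) ^ L) ^ 2 / 2 ^ (L / h) + 1) →
        ∀ F : QPar, F = fam m k cd L S ℓ μ ((2 ^ (20 * m)) ^ L * ℓ) →
        nSeed L (2 ^ (20 * m)) (S + 1) F.Cn ≤ Ns →
        ∀ out : (Fin Ns → Fin F.q) → ℕ,
        (∀ c, ∃ R : Finset (ℕ × ℕ),
          out c = cval F.P (visW ℓ) (hidS x y ℓ) R L 0 0
            (vend x y ((2 ^ (20 * m)) ^ L * ℓ)) + 1 ∧
          ((rd F.P F.mc (rndOf L (2 ^ (20 * m)) (S + 1) F.Cn (2 ^ k - 1) (arrOf c))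
              (visW ℓ) (hidS x y ℓ) L 0 0 F.N).card ≤ Qr →
            R = rd F.P F.mc (rndOf L (2 ^ (20 * m)) (S + 1) F.Cn (2 ^ k - 1) (arrOf c))
              (visW ℓ) (hidS x y ℓ) L 0 0 F.N)) →
        2 * Nat.card (Fin Ns → Fin F.q) ≤ 3 * Nat.card {c : Fin Ns → Fin F.q //
          ED x y ≤ out c ∧ (out c : ℝ) ≤ ED x y + ε * ((max x.length y.length : ℕ) : ℝ)} := by
  obtain ⟨m, k, cd, a₀, n₀, c, A, hm, hc, hmain⟩ := hQT (ε / 96) (by positivity)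
  obtain ⟨h, hh⟩ := exists_nat_ge (1 / c)
  obtain ⟨C0, hC0⟩ := exists_nat_ge (12 * |A|)
  refine ⟨m, k, cd, h + 1, C0 + 1, hm, by omega, by omega, fun w q hw hq => ?_⟩
  have hB2 : 2 ≤ 2 ^ m := by
    calc 2 = 2 ^ 1 := rfl
      _ ≤ 2 ^ m := Nat.pow_le_pow_right (by norm_num) hm
  have hM2 : 2 ≤ 2 ^ (20 * m) := by
    calc 2 = 2 ^ 1 := rfl
      _ ≤ 2 ^ (20 * m) := Nat.pow_le_pow_right (by norm_num) (by omega)
  obtain ⟨N1, hN1⟩ := exists_side (q := q) hB2 hM2 (by omega) w m (a₀ + 1) n₀ hw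
  obtain ⟨N2, hN2⟩ := exists_rows_small hB2 hM2 q 2 (by omega) (96 * (1 + ε)) hε
  obtain ⟨b₀, hb₀⟩ := exists_nat_ge (768 / ε)
  obtain ⟨N3, hN3⟩ := exists_side (q := q) hB2 hM2 (by omega) w m b₀ n₀ hw
  refine ⟨max N1 (max N2 N3), ?_⟩
  intro x y L S μ ℓ Qr Ns hN hL hS hμ hℓ hQr F hF hNs out hout
  obtain ⟨s1, s2, s3, s4, s5, s6⟩ := hN1 _ ((le_max_left _ _).trans hN)
  have r1 := hN2 _ ((le_max_left _ _).trans ((le_max_right _ _).trans hN))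
  obtain ⟨-, -, -, -, -, t6⟩ := hN3 _ ((le_max_right _ _).trans ((le_max_right _ _).trans hN))
  rw [← hL] at s1 s2 s3 s4 s5 s6 r1 t6
  rw [← hS] at s2 s3 s4 s5
  obtain ⟨hμ1, hK1, hℓ1, hdvd, hdiv, hcov, hmK⟩ := params_facts hM2 Nat.one_le_two_pow
    (Nat.pow_le_pow_right (by norm_num) (Nat.div_le_self L w)) hμ hℓ
  obtain ⟨hmesh, hη1⟩ := loss_facts s6 hμ1 hℓ hℓ1
  have hη0 : (0 : ℝ) ≤ (8 * μ + 4) / ℓ := by positivity
  have hGood := hmain L S ℓ μ ((2 ^ (20 * m)) ^ L * ℓ) s1 s2 s3 s4 hμ1 hdvd hmesh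
    (by rw [hdiv]; exact s5) hℓ1 (by rw [pow_mul]) ((8 * μ + 4) / ℓ) hη0 hη1
  rw [← hF] at hGood
  have e0 : (2 ^ (20 * m * L) : ℝ) = (((2 ^ (20 * m)) ^ L : ℕ) : ℝ) := by
    rw [pow_mul]; push_cast; rfl
  rw [e0] at hGood
  obtain ⟨H, hP⟩ := hfam.P_eq m k cd L S ℓ μ ((2 ^ (20 * m)) ^ L * ℓ)
  have hn := hfam.n_eq m k cd L S ℓ μ ((2 ^ (20 * m)) ^ L * ℓ)
  have hq0 := hfam.q_pos m k cd L S ℓ μ ((2 ^ (20 * m)) ^ L * ℓ)
  rw [← hF] at hP hn hq0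
  rw [hP] at hout
  have hb : b₀ ≤ 2 ^ (L / w) := by
    refine le_trans ?_ t6
    calc b₀ ≤ 12 * b₀ := by omega
      _ ≤ 12 * (b₀ * (L + 2) ^ b₀) := by
        apply Nat.mul_le_mul_left
        exact Nat.le_mul_of_pos_right _ (Nat.pow_pos (by omega))
  exact good_one hε hP hn hq0 hGood hM2 Nat.one_le_two_pow
    (Nat.pow_le_pow_right (by norm_num) (Nat.div_le_self L w)) hμ hℓ hQr hc hh hC0 hb₀ hb r1
    hNs out hout

end Vale.Agent.P315.Top
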