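import Vale.Agent.P315.H873.Glue3
import Vale.Agent.P315.H248.InstW
import Vale.Agent.P315.H659.Seed

/-!
P315, T-TOP: assembly of the additive statement, probabilistic part.

`good_seeds`: two thirds of the seeds are good, from the two averages of the query theorem (value
of the root, number of reads), the form of the output of the strategy and the certificate.
`good_seeds_QPar`: the same from `QPar.Good`.
-/

set_option autoImplicit false

open Finset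

namespace Vale.Agent.P315.Top

open Vale.Agent.P315 Vale.Agent.P315.C Vale.Agent.P315.H248 Vale.Agent.P315.H731
open Vale.Agent.P315.H659 (nSeed rndOf arrOf toRnd Ix av_rndOf)

/-- Two nonnegative quantities of small average are small for two thirds of the seeds. -/
theorem two_markov {Ω : Type*} [Fintype Ω] (X Y : Ω → ℝ) (hX : ∀ c, 0 ≤ X c) (hY : ∀ c, 0 ≤ Y c)
    {a b : ℝ} (ha : 0 < a) (hb : 0 < b) (h : 6 * av X ≤ a) (h' : 6 * av Y ≤ b) (P : Ω → Prop)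
    (hP : ∀ c, X c ≤ a → Y c ≤ b → P c) :
    2 * Nat.card Ω ≤ 3 * Nat.card {c : Ω // P c} := by
  classical
  refine two_thirds_of_av (fun c => X c / a + Y c / b) (fun c => add_nonneg
    (div_nonneg (hX c) ha.le) (div_nonneg (hY c) hb.le)) one_pos ?_ P ?_
  · have h1 : av (fun c => X c / a + Y c / b) = av X / a + av Y / b := by
      rw [av_add (fun c => X c / a), av_div_const, av_div_const]
    rw [h1]
    have h2 : av X / a ≤ 1 / 6 := by rw [div_le_iff₀ ha]; linarith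
    have h3 : av Y / b ≤ 1 / 6 := by rw [div_le_iff₀ hb]; linarith
    linarith
  · intro c hc
    have h1 : 0 ≤ X c / a := div_nonneg (hX c) ha.le
    have h2 : 0 ≤ Y c / b := div_nonneg (hY c) hb.le
    have h3 : X c / a ≤ 1 := by linarith
    have h4 : Y c / b ≤ 1 := by linarith
    rw [div_le_one ha] at h3
    rw [div_le_one hb] at h4
    exact hP c h3 h4

/-- The costs of the strings `x`, `y`. -/
abbrev hidS (x y : List ℕ) (ℓ : ℕ) : Leaf :=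
  hidW (fun i => x.getD i 0) (fun i => y.getD i 0) ℓ

/-- **Two thirds of the seeds are good.** `out c` = output for the seeds `c`: the certified value
of the root, plus one, for some read set, which is the read set of the root if this has at most
`Q` elements. -/
theorem good_seeds {x y : List ℕ} {M ℓ μ B J S H n Q : ℕ} {mc : Mach} {N e : ℕ}
    (ω : (Fin N → Fin e) → Rnd) (b : ℤ) (out : (Fin N → Fin e) → ℕ) {E A δ : ℝ}
    (hcov : x.length + y.length ≤ M ^ n * ℓ)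
    (hout : ∀ c, ∃ R : Finset (ℕ × ℕ),
      out c = cval (boxPar M ℓ μ B J S H) (visW ℓ) (hidS x y ℓ) R n 0 0
        (vend x y (M ^ n * ℓ)) + 1 ∧
      ((rd (boxPar M ℓ μ B J S H) mc (ω c) (visW ℓ) (hidS x y ℓ) n 0 0 b).card ≤ Q →
        R = rd (boxPar M ℓ μ B J S H) mc (ω c) (visW ℓ) (hidS x y ℓ) n 0 0 b))
    (hval : av (fun c => (cR (boxPar M ℓ μ B J S H) mc (ω c) (visW ℓ) (hidS x y ℓ) n 0 0 b 0
      (vend x y (M ^ n * ℓ)) : ℝ)) ≤ ED x y + E)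
    (hread : av (fun c => ((rd (boxPar M ℓ μ B J S H) mc (ω c) (visW ℓ) (hidS x y ℓ)
      n 0 0 b).card : ℝ)) ≤ A)
    (hN : 0 < e) (hδ : 0 < δ) (hE : 6 * (E + 1) ≤ δ) (hQ : 0 < Q) (hA : 6 * A ≤ Q) :
    2 * Nat.card (Fin N → Fin e) ≤ 3 * Nat.card {c : Fin N → Fin e //
      ED x y ≤ out c ∧ (out c : ℝ) ≤ ED x y + δ} := by
  have : Nonempty (Fin e) := ⟨⟨0, hN⟩⟩
  have hQ' : (0 : ℝ) < Q := by exact_mod_cast hQ
  refine two_markov
    (fun c => (cR (boxPar M ℓ μ B J S H) mc (ω c) (visW ℓ) (hidS x y ℓ) n 0 0 b 0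
      (vend x y (M ^ n * ℓ)) : ℝ) + (1 - ED x y))
    (fun c => ((rd (boxPar M ℓ μ B J S H) mc (ω c) (visW ℓ) (hidS x y ℓ)
      n 0 0 b).card : ℝ)) (fun c => ?_) (fun c => Nat.cast_nonneg _) hδ hQ' ?_ ?_ _ ?_
  · have h1 := cval_cert_ED (M := M) (ℓ := ℓ) (μ := μ) (B := B) (J := J) (S := S) (H := H) x y
      (rd (boxPar M ℓ μ B J S H) mc (ω c) (visW ℓ) (hidS x y ℓ) n 0 0 b) n hcov
    have h2 : (ED x y : ℝ) ≤ (cR (boxPar M ℓ μ B J S H) mc (ω c) (visW ℓ) (hidS x y ℓ) n 0 0 b 0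
      (vend x y (M ^ n * ℓ)) : ℝ) + 1 := by exact_mod_cast h1
    linarith
  · rw [av_add (fun c => (cR (boxPar M ℓ μ B J S H) mc (ω c) (visW ℓ) (hidS x y ℓ) n 0 0 b 0
      (vend x y (M ^ n * ℓ)) : ℝ)), av_const]
    linarith
  · linarith
  · intro c h1 h2
    obtain ⟨R, hR1, hR2⟩ := hout c
    have h3 : (rd (boxPar M ℓ μ B J S H) mc (ω c) (visW ℓ) (hidS x y ℓ) n 0 0 b).card ≤ Q := by
      exact_mod_cast h2
    refine ⟨?_, ?_⟩
    · rw [hR1]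
      exact cval_cert_ED (M := M) (ℓ := ℓ) (μ := μ) (B := B) (J := J) (S := S) (H := H) x y
        R n hcov
    · rw [hR1, hR2 h3]
      have h4 : ((cval (boxPar M ℓ μ B J S H) (visW ℓ) (hidS x y ℓ)
        (rd (boxPar M ℓ μ B J S H) mc (ω c) (visW ℓ) (hidS x y ℓ) n 0 0 b) n 0 0
        (vend x y (M ^ n * ℓ)) : ℕ) : ℝ) + (1 - ED x y) ≤ δ := h1
      push_cast
      linarith

/-- The two averages for the instance of two strings. -/
theorem QPar.averages {Q : QPar} {M ℓ μ B J S H : ℕ} (hP : Q.P = boxPar M ℓ μ B J S H)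
    {ε A : ℝ} (hGood : Q.Good ((8 * μ + 4) / ℓ) ε A) (x y : List ℕ) (hM : 0 < M) (hμ : 0 < μ)
    (hd : μ ∣ ℓ) (hℓ : 0 < ℓ) (hcov : x.length + y.length ≤ M ^ Q.n * ℓ)
    (hB : M ^ Q.n * ℓ ≤ B) :
    av (fun w : Ix Q.n M S Q.Cn → Fin Q.q =>
        (cR (boxPar M ℓ μ B J S H) Q.mc (toRnd J w) (visW ℓ) (hidS x y ℓ) Q.n 0 0 Q.N 0
          (vend x y (M ^ Q.n * ℓ)) : ℝ)) ≤
      ED x y + (1 + M ^ Q.n * (8 * μ + 2) + ε * (ℓ * M ^ Q.n)) ∧
    av (fun w : Ix Q.n M S Q.Cn → Fin Q.q =>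
        ((rd (boxPar M ℓ μ B J S H) Q.mc (toRnd J w) (visW ℓ) (hidS x y ℓ)
          Q.n 0 0 Q.N).card : ℝ)) ≤ A := by
  obtain ⟨P, mc, n, N, Cn, q⟩ := Q
  simp only at hP
  subst hP
  simp only at hcov hB hGood ⊢
  obtain ⟨C, hC, hw, h0, h1, h2⟩ := exists_inst (M := M) (ℓ := ℓ) (μ := μ) (B := B) (J := J)
    (S := S) (H := H) x y n hM hμ hd hℓ hcov hB
  obtain ⟨g1, g2⟩ := hGood _ _ C hC hw
  refine ⟨?_, g2⟩
  have hK : (⟨boxPar M ℓ μ B J S H, mc, n, N, Cn, q⟩ : QPar).K = M ^ n := rfl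
  rw [hK, h0, h1] at g1
  refine g1.trans ?_
  have e1 : ((boxPar M ℓ μ B J S H).ℓ : ℝ) = ℓ := rfl
  rw [e1]
  push_cast
  linarith

/-- **Two thirds of the seeds are good**, from `QPar.Good`. The seeds are the numbers
`c i < Q.q`, `i < N`; the random data are read from this array as in `rndOf`. -/
theorem good_seeds_QPar {Q : QPar} {M ℓ μ B J S H : ℕ} (hP : Q.P = boxPar M ℓ μ B J S H)
    {ε A : ℝ} (hGood : Q.Good ((8 * μ + 4) / ℓ) ε A) (x y : List ℕ) (hM : 0 < M) (hμ : 0 < μ)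
    (hd : μ ∣ ℓ) (hℓ : 0 < ℓ) (hcov : x.length + y.length ≤ M ^ Q.n * ℓ)
    (hB : M ^ Q.n * ℓ ≤ B) (hq : 0 < Q.q) {N Qr : ℕ} (hN : nSeed Q.n M S Q.Cn ≤ N)
    (out : (Fin N → Fin Q.q) → ℕ) {δ : ℝ}
    (hout : ∀ c, ∃ R : Finset (ℕ × ℕ),
      out c = cval (boxPar M ℓ μ B J S H) (visW ℓ) (hidS x y ℓ) R Q.n 0 0
        (vend x y (M ^ Q.n * ℓ)) + 1 ∧
      ((rd (boxPar M ℓ μ B J S H) Q.mc (rndOf Q.n M S Q.Cn J (arrOf c)) (visW ℓ)
          (hidS x y ℓ) Q.n 0 0 Q.N).card ≤ Qr →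
        R = rd (boxPar M ℓ μ B J S H) Q.mc (rndOf Q.n M S Q.Cn J (arrOf c)) (visW ℓ)
          (hidS x y ℓ) Q.n 0 0 Q.N))
    (hδ : 0 < δ)
    (hE : 6 * (2 + M ^ Q.n * (8 * μ + 2) + ε * (ℓ * M ^ Q.n)) ≤ δ)
    (hQ : 0 < Qr) (hA : 6 * A ≤ Qr) :
    2 * Nat.card (Fin N → Fin Q.q) ≤ 3 * Nat.card {c : Fin N → Fin Q.q //
      ED x y ≤ out c ∧ (out c : ℝ) ≤ ED x y + δ} := by
  obtain ⟨h1, h2⟩ := QPar.averages hP hGood x y hM hμ hd hℓ hcov hB
  have e1 := av_rndOf (n := Q.n) (M := M) (S := S) (Cn := Q.Cn) (N := N) (q := Q.q) J hN hq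
    (fun ω => (cR (boxPar M ℓ μ B J S H) Q.mc ω (visW ℓ) (hidS x y ℓ) Q.n 0 0 Q.N 0
          (vend x y (M ^ Q.n * ℓ)) : ℝ))
  have e2 := av_rndOf (n := Q.n) (M := M) (S := S) (Cn := Q.Cn) (N := N) (q := Q.q) J hN hq
    (fun ω => ((rd (boxPar M ℓ μ B J S H) Q.mc ω (visW ℓ) (hidS x y ℓ)
          Q.n 0 0 Q.N).card : ℝ))
  rw [← e1] at h1
  rw [← e2] at h2
  exact good_seeds (fun c => rndOf Q.n M S Q.Cn J (arrOf c)) Q.N out hcov hout h1 h2 hq hδ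
    (by linarith) hQ hA

end Vale.Agent.P315.Top
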