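import Vale.Agent.P315.H155.M2Run
import Vale.Agent.P315.H207.M2Cst
import Vale.Agent.P315.H873.MulFits
import Vale.Agent.P315.H608.Size2
import Vale.Agent.P315.H608.Cost2
import Vale.Agent.P315.H514.StB
import Vale.Agent.P315.H486.Bridge2
import Vale.Agent.P315.H731.VisFeed
import Vale.Agent.P315.H54.GoodCst
import Vale.Agent.P315.Top.Stmt

/-!
P315, T-TOP of milestone 2: the multiplicative theorem from the query theorem.
-/

set_option autoImplicit false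

namespace Vale.Agent.P315.Top

open Vale.Agent.P315 Vale.Agent.P315.C Vale.Agent.P315.RAM Vale.Agent.P315.H486
open Vale.Agent.P315.H608 (Cst2)
open Vale.Agent.P315.H873 (mulF GF gp sl pe2)
open Vale.Agent.P315.H659 (nSeed rndOf arrOf)
open Vale.Agent.P315.H846 (StmtQT2)
open Vale.Agent.P315.H155 (fam2 m2Strat m2Sz Grid)
open Vale.Agent.P315.H207.M2 (FitM)
open Vale.Agent.P315.H731 (fd)

/-- The constants of the algorithm. -/
def cstM (m k h C0 ak e₀ e₁ : ℕ) (hm : 1 ≤ m) (hh : 1 ≤ h) (hC0 : 1 ≤ C0) (hak : 1 ≤ ak)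
    (he₁ : 1 ≤ e₁) : Cst2 where
  B := 2 ^ m
  M := 2 ^ (20 * m)
  C0 := C0
  h := h
  wm := 2 * h
  ms := 4 * m
  kc := k
  mt := 270 * m
  mm := m
  mp := 0
  hB := by
    calc 2 = 2 ^ 1 := rfl
      _ ≤ 2 ^ m := Nat.pow_le_pow_right (by norm_num) hm
  hM := by
    calc 2 = 2 ^ 1 := rfl
      _ ≤ 2 ^ (20 * m) := Nat.pow_le_pow_right (by norm_num) (by omega)
  hC0 := hC0
  hh := hh
  hwm := le_rfl
  ak := ak
  e₀ := e₀
  e₁ := e₁
  c2 := 4
  bm := 20 * m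
  C1 := 1
  hak := hak
  he₁ := he₁
  hbm := rfl

/-- The constants fit. -/
theorem cstM_fit {m k h C0 ak e₀ e₁ Ak : ℕ} {hm : 1 ≤ m} {hh : 1 ≤ h} {hC0 : 1 ≤ C0}
    {hak : 1 ≤ ak} {he₁ : 1 ≤ e₁} (hA : Ak ≤ ak) :
    H54.CstFit (cstM m k h C0 ak e₀ e₁ hm hh hC0 hak he₁) m k e₀ e₁ h C0 Ak where
  hB := rfl
  hbm := rfl
  hc2 := rfl
  he₀ := rfl
  he₁ := le_rfl
  hak := hA
  hh := rfl
  hC0 := le_rfl
  hC1 := le_rfl
  hkc := rfl
  hmt := rfl
  hms := rfl

/-- The grid. -/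
theorem grid_of {c : Cst2} {q m k : ℕ} {F : List ℕ} {p : ℕ × ℕ} (h : FitM c q m k F p) :
    Grid ((2 ^ (20 * m)) ^ c.L (gp c q p)) (c.μ2 (sl p) (gp c q p)) (c.ℓ2 (sl p) (gp c q p))
      (c.w0 (sl p) (gp c q p)) (c.B2 (sl p) (gp c q p)) (c.c0 (sl p) (gp c q p)) (pe2 c q p)
      (c.D2 (gp c q p)) where
  ev := h.hev
  dl := h.hd
  dw := h.hdw
  dc := h.h0
  de := h.hpμ
  cB := Cst2.c0_le_B2 _ _
  eB := h.hpB
  hD := h.hKD

/-- Enough rounds. -/
theorem rounds_le {c : Cst2} {Kr : ℕ} (N g : ℕ) (h : Kr ≤ c.Q g) :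
    Kr * (2 ^ (c.Kc g + 4) * (c.w0 N g / c.μ2 N g) + 1) ≤ c.Q2 g := by
  rw [Cst2.w0_div_μ2]
  unfold Cst2.Q2
  refine Nat.mul_le_mul h ?_
  have h1 : 2 ^ (c.Kc g + c.z g + 5) = 2 * (2 ^ (c.Kc g + 4) * 2 ^ c.z g) := by
    rw [← pow_add, ← pow_succ']
    congr 1
    ring
  have h2 : 1 ≤ 2 ^ (c.Kc g + 4) * 2 ^ c.z g := Nat.mul_pos (by positivity) (by positivity)
  omega

section

variable {c : Cst2} {q cb N₀ m k cd D1 : ℕ} {x y : List ℕ}

/-- **The output for one vector of seeds.** -/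
theorem out_one (hbm : c.bm = 20 * m) (hms : c.ms = 4 * m) {e : ℕ}
    (cc : Fin (c.Nu2 (gp c q (len2 x y)) + (GF c q).nSd (len2 x y)) → Fin e)
    (hfit : FitM c q m k (fd c q cb N₀ x y (arrOf cc)) (len2 x y)) :
    ∃ R : Finset (ℕ × ℕ),
      (m2Strat m k cd D1).fin ((mulF c q cb N₀).ans x y) ((mulF c q cb N₀).Q (len2 x y))
        (fd c q cb N₀ x y (arrOf cc)) =
      cval (fam2 m k cd D1 (c.L (gp c q (len2 x y))) (c.S (gp c q (len2 x y)))
          (c.ℓ2 (sl (len2 x y)) (gp c q (len2 x y))) (c.μ2 (sl (len2 x y)) (gp c q (len2 x y)))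
          (c.B2 (sl (len2 x y)) (gp c q (len2 x y))) (c.w0 (sl (len2 x y)) (gp c q (len2 x y)))
          (c.Kc (gp c q (len2 x y))) (c.Kc (gp c q (len2 x y)))).P
        (H54.visC ((GF c q).q (len2 x y)) x y (c.ℓh (sl (len2 x y)) (gp c q (len2 x y)))
          (c.c0 (sl (len2 x y)) (gp c q (len2 x y))) cc (c.Nu2 (gp c q (len2 x y))))
        (H54.hidC x y (c.ℓh (sl (len2 x y)) (gp c q (len2 x y)))
          (c.c0 (sl (len2 x y)) (gp c q (len2 x y)))) R (c.L (gp c q (len2 x y))) 0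
        (c.c0 (sl (len2 x y)) (gp c q (len2 x y))) (pe2 c q (len2 x y)) +
        (2 * c.μ2 (sl (len2 x y)) (gp c q (len2 x y)) + 1) ∧
      ((rd (fam2 m k cd D1 (c.L (gp c q (len2 x y))) (c.S (gp c q (len2 x y)))
          (c.ℓ2 (sl (len2 x y)) (gp c q (len2 x y))) (c.μ2 (sl (len2 x y)) (gp c q (len2 x y)))
          (c.B2 (sl (len2 x y)) (gp c q (len2 x y))) (c.w0 (sl (len2 x y)) (gp c q (len2 x y)))
          (c.Kc (gp c q (len2 x y))) (c.Kc (gp c q (len2 x y)))).P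
        (fam2 m k cd D1 (c.L (gp c q (len2 x y))) (c.S (gp c q (len2 x y)))
          (c.ℓ2 (sl (len2 x y)) (gp c q (len2 x y))) (c.μ2 (sl (len2 x y)) (gp c q (len2 x y)))
          (c.B2 (sl (len2 x y)) (gp c q (len2 x y))) (c.w0 (sl (len2 x y)) (gp c q (len2 x y)))
          (c.Kc (gp c q (len2 x y))) (c.Kc (gp c q (len2 x y)))).mc
        (rndOf (c.L (gp c q (len2 x y))) (2 ^ (20 * m)) (c.S (gp c q (len2 x y)) + 1)
          (fam2 m k cd D1 (c.L (gp c q (len2 x y))) (c.S (gp c q (len2 x y)))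
          (c.ℓ2 (sl (len2 x y)) (gp c q (len2 x y))) (c.μ2 (sl (len2 x y)) (gp c q (len2 x y)))
          (c.B2 (sl (len2 x y)) (gp c q (len2 x y))) (c.w0 (sl (len2 x y)) (gp c q (len2 x y)))
          (c.Kc (gp c q (len2 x y))) (c.Kc (gp c q (len2 x y)))).Cn (2 ^ k - 1)
          (fun i => arrOf cc i % (fam2 m k cd D1 (c.L (gp c q (len2 x y)))
          (c.S (gp c q (len2 x y)))
          (c.ℓ2 (sl (len2 x y)) (gp c q (len2 x y))) (c.μ2 (sl (len2 x y)) (gp c q (len2 x y)))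
          (c.B2 (sl (len2 x y)) (gp c q (len2 x y))) (c.w0 (sl (len2 x y)) (gp c q (len2 x y)))
          (c.Kc (gp c q (len2 x y))) (c.Kc (gp c q (len2 x y)))).q))
        (H54.visC ((GF c q).q (len2 x y)) x y (c.ℓh (sl (len2 x y)) (gp c q (len2 x y)))
          (c.c0 (sl (len2 x y)) (gp c q (len2 x y))) cc (c.Nu2 (gp c q (len2 x y))))
        (H54.hidC x y (c.ℓh (sl (len2 x y)) (gp c q (len2 x y)))
          (c.c0 (sl (len2 x y)) (gp c q (len2 x y)))) (c.L (gp c q (len2 x y))) 0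
        (H95.enc (c.Kc (gp c q (len2 x y))) 0 0)
        (fam2 m k cd D1 (c.L (gp c q (len2 x y))) (c.S (gp c q (len2 x y)))
          (c.ℓ2 (sl (len2 x y)) (gp c q (len2 x y))) (c.μ2 (sl (len2 x y)) (gp c q (len2 x y)))
          (c.B2 (sl (len2 x y)) (gp c q (len2 x y))) (c.w0 (sl (len2 x y)) (gp c q (len2 x y)))
          (c.Kc (gp c q (len2 x y))) (c.Kc (gp c q (len2 x y)))).N).card ≤
          c.Q (gp c q (len2 x y)) →
        R = rd (fam2 m k cd D1 (c.L (gp c q (len2 x y))) (c.S (gp c q (len2 x y)))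
          (c.ℓ2 (sl (len2 x y)) (gp c q (len2 x y))) (c.μ2 (sl (len2 x y)) (gp c q (len2 x y)))
          (c.B2 (sl (len2 x y)) (gp c q (len2 x y))) (c.w0 (sl (len2 x y)) (gp c q (len2 x y)))
          (c.Kc (gp c q (len2 x y))) (c.Kc (gp c q (len2 x y)))).P
        (fam2 m k cd D1 (c.L (gp c q (len2 x y))) (c.S (gp c q (len2 x y)))
          (c.ℓ2 (sl (len2 x y)) (gp c q (len2 x y))) (c.μ2 (sl (len2 x y)) (gp c q (len2 x y)))
          (c.B2 (sl (len2 x y)) (gp c q (len2 x y))) (c.w0 (sl (len2 x y)) (gp c q (len2 x y)))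
          (c.Kc (gp c q (len2 x y))) (c.Kc (gp c q (len2 x y)))).mc
        (rndOf (c.L (gp c q (len2 x y))) (2 ^ (20 * m)) (c.S (gp c q (len2 x y)) + 1)
          (fam2 m k cd D1 (c.L (gp c q (len2 x y))) (c.S (gp c q (len2 x y)))
          (c.ℓ2 (sl (len2 x y)) (gp c q (len2 x y))) (c.μ2 (sl (len2 x y)) (gp c q (len2 x y)))
          (c.B2 (sl (len2 x y)) (gp c q (len2 x y))) (c.w0 (sl (len2 x y)) (gp c q (len2 x y)))
          (c.Kc (gp c q (len2 x y))) (c.Kc (gp c q (len2 x y)))).Cn (2 ^ k - 1)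
          (fun i => arrOf cc i % (fam2 m k cd D1 (c.L (gp c q (len2 x y)))
          (c.S (gp c q (len2 x y)))
          (c.ℓ2 (sl (len2 x y)) (gp c q (len2 x y))) (c.μ2 (sl (len2 x y)) (gp c q (len2 x y)))
          (c.B2 (sl (len2 x y)) (gp c q (len2 x y))) (c.w0 (sl (len2 x y)) (gp c q (len2 x y)))
          (c.Kc (gp c q (len2 x y))) (c.Kc (gp c q (len2 x y)))).q))
        (H54.visC ((GF c q).q (len2 x y)) x y (c.ℓh (sl (len2 x y)) (gp c q (len2 x y)))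
          (c.c0 (sl (len2 x y)) (gp c q (len2 x y))) cc (c.Nu2 (gp c q (len2 x y))))
        (H54.hidC x y (c.ℓh (sl (len2 x y)) (gp c q (len2 x y)))
          (c.c0 (sl (len2 x y)) (gp c q (len2 x y)))) (c.L (gp c q (len2 x y))) 0
        (H95.enc (c.Kc (gp c q (len2 x y))) 0 0)
        (fam2 m k cd D1 (c.L (gp c q (len2 x y))) (c.S (gp c q (len2 x y)))
          (c.ℓ2 (sl (len2 x y)) (gp c q (len2 x y))) (c.μ2 (sl (len2 x y)) (gp c q (len2 x y)))
          (c.B2 (sl (len2 x y)) (gp c q (len2 x y))) (c.w0 (sl (len2 x y)) (gp c q (len2 x y)))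
          (c.Kc (gp c q (len2 x y))) (c.Kc (gp c q (len2 x y)))).N) := by
  have hagree := H731.agree_fd c q cb N₀ x y (m := 20 * m)
    (w0 := c.w0 (sl (len2 x y)) (gp c q (len2 x y))) (J := 2 ^ k - 1)
    (S := c.S (gp c q (len2 x y)) + 1)
    (H := famH m (c.L (gp c q (len2 x y))) (c.S (gp c q (len2 x y))))
    (Kc := c.Kc (gp c q (len2 x y)) + 3) (D1 := D1)
    (K := (2 ^ (20 * m)) ^ c.L (gp c q (len2 x y))) (H207.M2.K_eq2 hbm _).le cc
  obtain ⟨R, h1, h2⟩ := H155.m2_fin (cd := cd) (D1 := D1) hfit.fit (grid_of hfit) hfit.hD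
    (fun i => x.getD i 0) (fun i => y.getD i 0) hfit.hpe hagree (c.Q2 (gp c q (len2 x y)))
  have hdiv : c.ℓ2 (sl (len2 x y)) (gp c q (len2 x y)) / c.μ2 (sl (len2 x y)) (gp c q (len2 x y)) =
      2 ^ (c.w (gp c q (len2 x y)) + c.z (gp c q (len2 x y))) := Cst2.ℓ2_div_μ2 _ _
  have hrnd := H731.rndF_fd (q := q) (cb := cb) (N₀ := N₀) (x := x) (y := y) (c := c)
    (a := arrOf cc) (m := m) (k := k) (H731.nSeed_le_Nu2 c hbm hms _)
    (c.ℓ2 (sl (len2 x y)) (gp c q (len2 x y)))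
  rw [Cst2.ℓ2_div_two] at h1 h2
  rw [hdiv] at h1
  rw [hrnd] at h2
  exact ⟨R, h1, fun h => h2 (rounds_le _ _ h)⟩

/-- **The run of the strategy is small.** -/
theorem run_one (hbm : c.bm = 20 * m) {a : ℕ → ℕ} (ha : ∀ i, a i < (mulF c q cb N₀).e (len2 x y))
    (hfit : FitM c q m k (fd c q cb N₀ x y a) (len2 x y)) {S Vb R V Sz Tp : ℕ}
    (hfits : (mulF c q cb N₀).Fits x y S Vb R Sz Tp (H933.visG (GF c q) x y))
    (hV : c.K (gp c q (len2 x y)) * 2 ^ (cb * Nat.size (sl (len2 x y) + 2)) +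
      2 * c.B2 (sl (len2 x y)) (gp c q (len2 x y)) +
      (2 * c.μ2 (sl (len2 x y)) (gp c q (len2 x y)) + 1) ≤ V) :
    (m2Strat m k cd D1).RunOk ((mulF c q cb N₀).ans x y) ((mulF c q cb N₀).Q (len2 x y))
      (fd c q cb N₀ x y a) (H514.szM c cb (sl (len2 x y)) (gp c q (len2 x y)))
      (c.K (gp c q (len2 x y)) * c.D2 (gp c q (len2 x y))) V := by
  have hK := H207.M2.K_eq2 (c := c) hbm (gp c q (len2 x y))
  have hdiv : c.ℓ2 (sl (len2 x y)) (gp c q (len2 x y)) / c.μ2 (sl (len2 x y)) (gp c q (len2 x y)) =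
      2 ^ (c.w (gp c q (len2 x y)) + c.z (gp c q (len2 x y))) := Cst2.ℓ2_div_μ2 _ _
  have hFb : ∀ v ∈ fd c q cb N₀ x y a, v < 2 ^ (cb * Nat.size (sl (len2 x y) + 2)) := by
    intro v hv
    have hv' : v ∈ ((mulF c q cb N₀).pfx (len2 x y) ++
        (List.range ((mulF c q cb N₀).N (len2 x y))).map a) ++
        H933.visG (GF c q) x y (MulF.sdL ((mulF c q cb N₀).N (len2 x y))
          ((mulF c q cb N₀).NS (len2 x y)) a) := hv
    rcases List.mem_append.mp hv' with h | h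
    · rcases List.mem_append.mp h with h | h
      · exact hfits.hpre v h
      · obtain ⟨i, -, rfl⟩ := List.mem_map.mp h
        exact lt_of_lt_of_le (ha i) hfits.e1
    · exact hfits.vis_lt _ v h
  have h := H155.m2_runOk (cd := cd) (D1 := D1) hfit.fit (grid_of hfit) hfit.hD
    (fun i => x.getD i 0) (fun i => y.getD i 0) (b := cb * Nat.size (sl (len2 x y) + 2))
    hfits.hl hFb hfit.hpe (Q := c.Q2 (gp c q (len2 x y))) (V := V) (by rw [hK]; exact hV)
  rw [hK, H731.length_fd, ← hbm] at h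
  unfold H514.szM
  rw [hdiv] at h ⊢
  exact h

end

/-- **The multiplicative theorem from the query theorem.** -/
theorem stmtMul_of (hQT : StmtQT2 fam2) : StmtMul := by
  intro ε hε
  obtain ⟨m, k, cd, D1, e₀, E₁, h, C0, Ak, hm, hE₁, hh, hC0, hAk, hgood⟩ :=
    H54.good_of_cst hQT hε
  obtain ⟨k₂, hsolve⟩ := main_solves2 (m2Strat m k cd D1)
  obtain ⟨c, hc⟩ : ∃ c : Cst2, c = cstM m k h C0 (Ak + 3 * h + 2) e₀ E₁ hm hh hC0
    (by omega) hE₁ := ⟨_, rfl⟩
  have hcf : H54.CstFit c m k e₀ E₁ h C0 Ak := by rw [hc]; exact cstM_fit (by omega)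
  have hak : c.ak = Ak + 3 * h + 2 := by rw [hc]; rfl
  have hak2 : 2 ≤ c.ak := by omega
  have hak3 : 3 * c.h ≤ c.ak := by rw [hak, hcf.hh]; omega
  clear hc
  obtain ⟨aS, haS⟩ := H514.szM_leK' c
  obtain ⟨q₀, -, hcost⟩ := Cst2.cost_le (c := c) hak3 k₂ aS
  obtain ⟨q, hq⟩ : ∃ q : ℕ, q = max 3 q₀ := ⟨_, rfl⟩
  have hq3 : 3 ≤ q := hq ▸ le_max_left _ _
  have hqq : q₀ ≤ q := hq ▸ le_max_right _ _
  obtain ⟨N₁, hN₁⟩ := hgood c hcf q hq3
  obtain ⟨cb, hcb⟩ := H873.mulF_fits c (q := q) (by omega) N₁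
  have hcb := hcb cb le_rfl
  obtain ⟨CS, hCS⟩ := haS cb
  obtain ⟨bS, hbS⟩ := H514.szM_le_pow c cb
  obtain ⟨bV, hbV⟩ := H514.vb_le_pow c
  obtain ⟨bR, hbR⟩ := H514.out_le_pow c cb
  obtain ⟨c₁, hc₁⟩ := hcb bS bV
  obtain ⟨g₁, hg₁⟩ := H207.M2.exists_fitM c hm hcf.hbm k hak2
  obtain ⟨n₁, hn₁⟩ := Cst2.le_G (c := c) (q := q) (by omega) g₁
  have hgp : ∀ x y : List ℕ, n₁ + 1 ≤ max x.length y.length → g₁ ≤ gp c q (len2 x y) := by
    intro x y hn
    refine hn₁ (sl (len2 x y)) ?_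
    have h1 : sl (len2 x y) = x.length + y.length := rfl
    have h2 := max_le (Nat.le_add_right x.length y.length) (Nat.le_add_left y.length x.length)
    omega
  have hfitM : ∀ x y : List ℕ, n₁ + 1 ≤ max x.length y.length → ∀ a : ℕ → ℕ,
      FitM c q m k (fd c q cb N₁ x y a) (len2 x y) := fun x y hn a =>
    hg₁ q cb N₁ (len2 x y) (hgp x y hn) (H933.visG (GF c q) x y) a
      (by rw [H933.length_visG, H873.mulF_NV])
  have hfits : ∀ x y : List ℕ, (mulF c q cb N₁).Fits x y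
      (H514.szM c cb (sl (len2 x y)) (gp c q (len2 x y)))
      (c.K (gp c q (len2 x y)) * c.D2 (gp c q (len2 x y)))
      ((max x.length y.length + 2) ^ (c₁ + 2 * bR)) 130 (H933.tpre (GF c q) (len2 x y))
      (H933.visG (GF c q) x y) := fun x y =>
    hc₁ _ (Nat.le_add_right _ _) x y _ _ (hbS q _ (by omega)) (hbV q _ (by omega))
  have hout : ∀ x y : List ℕ, c.K (gp c q (len2 x y)) *
      2 ^ (cb * Nat.size (sl (len2 x y) + 2)) +
      2 * c.B2 (sl (len2 x y)) (gp c q (len2 x y)) +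
      (2 * c.μ2 (sl (len2 x y)) (gp c q (len2 x y)) + 1) ≤
      (max x.length y.length + 2) ^ (c₁ + 2 * bR) := by
    intro x y
    refine (hbR q (sl (len2 x y)) (by omega)).trans ?_
    have h1 : sl (len2 x y) = x.length + y.length := rfl
    have h2 := le_max_left x.length y.length
    have h3 := le_max_right x.length y.length
    have h4 : sl (len2 x y) + 2 ≤ (max x.length y.length + 2) ^ 2 := by
      rw [h1]; nlinarith
    calc (sl (len2 x y) + 2) ^ bR ≤ ((max x.length y.length + 2) ^ 2) ^ bR :=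
          Nat.pow_le_pow_left h4 _
      _ = (max x.length y.length + 2) ^ (2 * bR) := by rw [← pow_mul]
      _ ≤ _ := Nat.pow_le_pow_right (by omega) (Nat.le_add_left _ _)
  obtain ⟨k₁, hk₁⟩ := hsolve (mulF c q cb N₁) (n₁ + 1) (c₁ + 2 * bR) 130
    (fun x y => H514.szM c cb (sl (len2 x y)) (gp c q (len2 x y)))
    (fun x y => c.K (gp c q (len2 x y)) * c.D2 (gp c q (len2 x y)))
    (fun x y => H933.tpre (GF c q) (len2 x y)) (fun x y => H933.visG (GF c q) x y)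
    (by omega) (fun x y _ => hfits x y) (fun x y _ => H873.mulF_e_eq c q cb N₁ _)
    (fun x y hn a ha => run_one hcf.hbm ha (hfitM x y hn a) (hfits x y) (hout x y))
  obtain ⟨δ, C, hδ, hδ1, hC, hle⟩ := hcost q hqq k₁ N₁ 12 cb CS aS
  obtain ⟨D, hD⟩ : ∃ D : ℕ, D = 360 * ((n₁ + 1 + 1) * (2 * (n₁ + 1) + 1)) + 10 := ⟨_, rfl⟩
  refine ⟨δ, hδ, C + D, ?_⟩
  have hpow : ∀ n : ℕ, (1 : ℝ) ≤ ((n : ℝ) + 1) ^ (2 - δ) := fun n =>
    Real.one_le_rpow (by have : (0 : ℝ) ≤ n := Nat.cast_nonneg n; linarith) (by linarith)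
  have hsol : ∃ (P : Prog) (kk : ℕ), Solves P
      (fun x y D => ED x y ≤ D ∧ (D : ℝ) ≤ (1 + ε) * ED x y)
      (fun n => (C + D) * ((n : ℝ) + 1) ^ (2 - δ)) kk := by
    refine hk₁ _ _ ?_ ?_ ?_ ?_
    · intro x y _
      have h1 := hle (sl (len2 x y)) (cb * Nat.size (sl (len2 x y) + 2))
        (H514.szM c cb (sl (len2 x y)) (gp c q (len2 x y))) (max x.length y.length)
        (Nat.mul_le_mul_left _ (H514.size_le_lg _)) (hCS _ _) (by
          have h1 : sl (len2 x y) = x.length + y.length := rfl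
          have h2 := le_max_left x.length y.length
          have h3 := le_max_right x.length y.length
          omega)
      have h2 : (mulF c q cb N₁).cost k₁ k₂ (len2 x y)
          (H514.szM c cb (sl (len2 x y)) (gp c q (len2 x y))) (H933.tpre (GF c q) (len2 x y)) =
          c.costC q k₁ k₂ N₁ 12 (sl (len2 x y)) (cb * Nat.size (sl (len2 x y) + 2))
            (H514.szM c cb (sl (len2 x y)) (gp c q (len2 x y))) := rfl
      rw [← h2] at h1
      refine h1.trans (mul_le_mul_of_nonneg_right ?_ (zero_le_one.trans (hpow _)))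
      exact le_add_of_nonneg_right (Nat.cast_nonneg _)
    · intro n _
      rw [← hD]
      have h4 : (0 : ℝ) ≤ C + D := add_nonneg hC (Nat.cast_nonneg _)
      calc (D : ℝ) ≤ (C + D) * 1 := by rw [mul_one]; exact le_add_of_nonneg_left hC
        _ ≤ (C + D) * ((n : ℝ) + 1) ^ (2 - δ) := mul_le_mul_of_nonneg_left (hpow n) h4
    · intro x y
      refine ⟨le_rfl, ?_⟩
      have : (0 : ℝ) ≤ (ED x y : ℝ) := Nat.cast_nonneg _
      nlinarith
    · intro x y hn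
      refine MulF.card_good (F := mulF c q cb N₁) (m2Strat m k cd D1) (x := x) (y := y)
        (H933.visG (GF c q) x y)
        (good := fun D => ED x y ≤ D ∧ (D : ℝ) ≤ (1 + ε) * ED x y) ⟨le_rfl, ?_⟩ (fun hk => ?_)
      · have : (0 : ℝ) ≤ (ED x y : ℝ) := Nat.cast_nonneg _
        nlinarith
      · refine hN₁ N₁ le_rfl x y (sl (len2 x y)) (gp c q (len2 x y)) ((GF c q).nSd (len2 x y))
          ((GF c q).q (len2 x y)) _ rfl rfl rfl rfl le_rfl
          (fun cc => (m2Strat m k cd D1).fin ((mulF c q cb N₁).ans x y)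
            ((mulF c q cb N₁).Q (len2 x y)) (fd c q cb N₁ x y (arrOf cc)))
          (fun hle => absurd hk (not_lt.mpr hle)) (fun _ cc => ?_)
        exact out_one hcf.hbm hcf.hms cc (hfitM x y hn _)
  obtain ⟨P, kk, hP⟩ := hsol
  exact ⟨kk, P, hP⟩

end Vale.Agent.P315.Top
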