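import Vale.Agent.P315.Top.Final
import Vale.Agent.P315.H804.M1Spec

/-!
P315, T-TOP: the value of the strategy is known, so that the additive theorem needs only the
query theorem.
-/

set_option autoImplicit false

namespace Vale.Agent.P315.Top

open Vale.Agent.P315 Vale.Agent.P315.C

/-- The specification of the strategy holds. -/
theorem valSpec : ValSpec := fun _ _ cd _ _ _ _ _ hF _ _ _ Qr hmc hx hy =>
  H804.m1_fin_strings (cd := cd) hF hx hy hmc.symm Qr

/-- **The additive theorem from the query theorem.** -/
theorem stmtAdd_of_QT (hQT : StmtQT C.fam) : StmtAdd := stmtAdd_of hQT valSpec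

end Vale.Agent.P315.Top
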