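import Vale.Agent.P315.H527.Cost
import Vale.Agent.P315.Q.M1Ok
import Vale.Agent.P315.Top.Good
import Vale.Agent.P315.H177.Bridge

/-!
P315, T-TOP: the additive theorem from the query theorem.
-/

set_option autoImplicit false

namespace Vale.Agent.P315.Top

open Vale.Agent.Lib.PolyTime (Enc esize)
open Vale.Agent.P315 Vale.Agent.P315.C Vale.Agent.P315.H248 Vale.Agent.P315.H527
  Vale.Agent.P315.RAM Vale.Agent.P315.Q.M1 Vale.Agent.P315.H809

open Vale.Agent.P315.H659 (nSeed rndOf arrOf)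

/-- The family has the shape of the string side. -/
theorem famBox : FamBox C.fam where
  P_eq := fun _ _ _ _ _ _ _ _ => ⟨_, rfl⟩
  n_eq := fun _ _ _ _ _ _ _ _ => rfl
  q_pos := fun _ _ _ _ _ _ _ _ => C.fam_q_pos

/-- The constants of the algorithm. -/
def cst (m k C0 h : ℕ) (hm : 1 ≤ m) (hC0 : 1 ≤ C0) (hh : 1 ≤ h) : Cst where
  B := 2 ^ m
  M := 2 ^ (20 * m)
  C0 := C0
  h := h
  wm := 2 * h
  ms := 4 * m
  kc := k
  mt := 50 * m
  mm := m
  mp := 54 * m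
  hB := by
    calc 2 = 2 ^ 1 := rfl
      _ ≤ 2 ^ m := Nat.pow_le_pow_right (by norm_num) hm
  hM := by
    calc 2 = 2 ^ 1 := rfl
      _ ≤ 2 ^ (20 * m) := Nat.pow_le_pow_right (by norm_num) (by omega)
  hC0 := hC0
  hh := hh
  hwm := le_rfl

/-! ### The size of the states -/

/-- The constant in the bound for the sizes of the states. -/
def CSz (c : Cst) : ℕ :=
  6 * c.dN * (2 * c.cm + 1) + 8 + 6 * c.C0 * (55 + 8 * (2 * c.cm + 1)) + 2 * (2 * c.cm + 1) + 3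

theorem m1Sz_le (c : Cst) (n g : ℕ) :
    m1Sz (6 + c.N g) (c.K g) (c.mc g) (c.cm * Cst.lg n) (c.Q g) ≤
      CSz c * (c.K g * Cst.lg n) ^ (c.aN + 6) := by
  have hK := Cst.K_pos (c := c) g
  have hl := Cst.lg_pos n
  have hQ := Cst.Q_le (c := c) g
  have hN := Cst.N_add_two_le (c := c) g
  have hmc := Cst.mc_sq_le (c := c) g
  have hmc1 := Cst.mc_pos (c := c) g
  have hC := c.hC0
  set K := c.K g with hKdef
  set l := Cst.lg n with hldef
  set X := K * l with hX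
  have hX1 : 1 ≤ X := Nat.mul_pos hK hl
  have hKX : K ≤ X := Nat.le_mul_of_pos_right _ hl
  have hlX : l ≤ X := Nat.le_mul_of_pos_left _ hK
  set D := 2 * c.cm + 1 with hD
  have hb : 2 * (c.cm * l) + 1 ≤ D * l := by
    have : D * l = 2 * (c.cm * l) + l := by rw [hD]; ring
    omega
  have hmm : c.mc g * (c.mc g + 1) ≤ 2 * K := by nlinarith
  have hL : 6 + c.N g ≤ 3 * c.dN * K ^ c.aN := by
    calc 6 + c.N g ≤ 3 * (c.N g + 2) := by omega
      _ ≤ 3 * (c.dN * K ^ c.aN) := Nat.mul_le_mul_left _ hN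
      _ = _ := by ring
  have hpow : ∀ i, i ≤ c.aN + 6 → X ^ i ≤ X ^ (c.aN + 6) := fun i hi =>
    Nat.pow_le_pow_right hX1 hi
  have hX2 : 1 ≤ X ^ 2 := Nat.one_le_pow _ _ hX1
  have hK2 : K ^ 2 ≤ X ^ 2 := Nat.pow_le_pow_left hKX 2
  have hT : c.Q g + 1 ≤ 3 * c.C0 * X ^ 2 := by
    have h3 : c.Q g ≤ 2 * c.C0 * X ^ 2 := hQ.trans (Nat.mul_le_mul_left _ hK2)
    have h4 : 1 ≤ c.C0 * X ^ 2 := Nat.mul_pos hC hX2
    have h5 : 3 * c.C0 * X ^ 2 = 2 * c.C0 * X ^ 2 + c.C0 * X ^ 2 := by ring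
    omega
  have hA3 : c.mc g * (c.mc g + 1) * (2 * (c.cm * l) + 1) ≤ 2 * D * X := by
    calc c.mc g * (c.mc g + 1) * (2 * (c.cm * l) + 1) ≤ (2 * K) * (D * l) :=
          Nat.mul_le_mul hmm hb
      _ = 2 * D * X := by rw [hX]; ring
  have hXX : X ≤ X ^ 2 := by
    rw [pow_two]; exact Nat.le_mul_of_pos_left _ hX1
  have hin : 2 * (2 * (12 * K ^ 2 + 1) + c.mc g * (c.mc g + 1) * (2 * (c.cm * l) + 1) + 1) + 1 ≤
      (55 + 8 * D) * X ^ 2 := by
    have h1 : 2 * D * X ≤ 2 * D * X ^ 2 := Nat.mul_le_mul_left _ hXX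
    have h2 : (55 + 8 * D) * X ^ 2 = 55 * X ^ 2 + 4 * (2 * D * X ^ 2) := by ring
    omega
  have hP : (c.Q g + 1) * (2 * (2 * (12 * K ^ 2 + 1) +
      c.mc g * (c.mc g + 1) * (2 * (c.cm * l) + 1) + 1) + 1) ≤
      3 * c.C0 * (55 + 8 * D) * X ^ (c.aN + 6) := by
    calc _ ≤ (3 * c.C0 * X ^ 2) * ((55 + 8 * D) * X ^ 2) := Nat.mul_le_mul hT hin
      _ = 3 * c.C0 * (55 + 8 * D) * X ^ 4 := by ring
      _ ≤ _ := Nat.mul_le_mul_left _ (hpow 4 (by omega))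
  have hA1 : (6 + c.N g) * (2 * (c.cm * l) + 1) ≤ 3 * c.dN * D * X ^ (c.aN + 6) := by
    calc _ ≤ (3 * c.dN * K ^ c.aN) * (D * l) := Nat.mul_le_mul hL hb
      _ ≤ (3 * c.dN * X ^ c.aN) * (D * X) :=
        Nat.mul_le_mul (Nat.mul_le_mul_left _ (Nat.pow_le_pow_left hKX _))
          (Nat.mul_le_mul_left _ hlX)
      _ = 3 * c.dN * D * X ^ (c.aN + 1) := by ring
      _ ≤ _ := Nat.mul_le_mul_left _ (hpow _ (by omega))
  have hA4 : 2 * D * X ≤ 2 * D * X ^ (c.aN + 6) :=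
    Nat.mul_le_mul_left _ (by simpa using hpow 1 (by omega))
  have hA2 : K ^ 2 ≤ X ^ (c.aN + 6) := hK2.trans (hpow 2 (by omega))
  have h1 : 1 ≤ X ^ (c.aN + 6) := Nat.one_le_pow _ _ hX1
  unfold m1Sz Q.stB CSz
  rw [← hD]
  have e : (6 * c.dN * D + 8 + 6 * c.C0 * (55 + 8 * D) + 2 * D + 3) * X ^ (c.aN + 6) =
      2 * (3 * c.dN * D * X ^ (c.aN + 6)) + 8 * X ^ (c.aN + 6) +
      2 * (3 * c.C0 * (55 + 8 * D) * X ^ (c.aN + 6)) + 2 * D * X ^ (c.aN + 6) +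
      3 * X ^ (c.aN + 6) := by ring
  rw [e]
  omega

/-! ### The feed -/

section

variable {m k C0 h : ℕ} {hm : 1 ≤ m} {hC0 : 1 ≤ C0} {hh : 1 ≤ h}

theorem pfx_eq (q : ℕ) (x y : List ℕ) :
    ((cst m k C0 h hm hC0 hh).adF q).pfx x y =
      [x.length, y.length,
        (cst m k C0 h hm hC0 hh).L ((cst m k C0 h hm hC0 hh).gg q (len2 x y)),
        (cst m k C0 h hm hC0 hh).S ((cst m k C0 h hm hC0 hh).gg q (len2 x y)),
        (cst m k C0 h hm hC0 hh).μ (x.length + y.length)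
          ((cst m k C0 h hm hC0 hh).gg q (len2 x y)),
        (cst m k C0 h hm hC0 hh).ℓ (x.length + y.length)
          ((cst m k C0 h hm hC0 hh).gg q (len2 x y))] := rfl

theorem pad_eq (g : ℕ) : padM m k ((cst m k C0 h hm hC0 hh).L g) ((cst m k C0 h hm hC0 hh).S g)
    ((cst m k C0 h hm hC0 hh).mc g) = (cst m k C0 h hm hC0 hh).pad g := rfl

theorem nSeed_eq (g : ℕ) : nSeed ((cst m k C0 h hm hC0 hh).L g) (2 ^ (20 * m))
    ((cst m k C0 h hm hC0 hh).S g + 1) (2 ^ (4 * m * 2 ^ (cst m k C0 h hm hC0 hh).S g)) =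
      (cst m k C0 h hm hC0 hh).Nu g := rfl

/-- The feed fits. -/
theorem fit_feed (n g : ℕ) (lx ly : ℕ) (cs : List ℕ)
    (hcs : (cst m k C0 h hm hC0 hh).N g ≤ cs.length) :
    Q.M1.Fit m k ([lx, ly, (cst m k C0 h hm hC0 hh).L g, (cst m k C0 h hm hC0 hh).S g,
      (cst m k C0 h hm hC0 hh).μ n g, (cst m k C0 h hm hC0 hh).ℓ n g] ++ cs)
      ((cst m k C0 h hm hC0 hh).L g) ((cst m k C0 h hm hC0 hh).S g)
      ((cst m k C0 h hm hC0 hh).μ n g) ((cst m k C0 h hm hC0 hh).ℓ n g) where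
  hn := rfl
  hS := rfl
  hμ := rfl
  hℓ := rfl
  m0 := hm
  μ0 := Cst.μ_pos n g
  ℓ0 := Cst.ℓ_pos n g
  dvd := Cst.μ_dvd_ℓ n g
  long := by
    rw [Cst.ℓ_div_μ, pad_eq, List.length_append]
    have := Cst.pad_le_N (c := cst m k C0 h hm hC0 hh) g
    omega

end

/-- What the strategy computes. -/
def ValSpec : Prop :=
  ∀ (m k cd : ℕ) (F : List ℕ) (n S μ ℓ : ℕ), Q.M1.Fit m k F n S μ ℓ →
    ∀ (x y : List ℕ) (mc Qr : ℕ), mc * μ = ℓ → F.getD 0 0 = x.length → F.getD 1 0 = y.length →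
    ∃ R : Finset (ℕ × ℕ),
      (m1Strat m k cd).fin (H817.adAns (fun i => x.getD i 0) (fun i => y.getD i 0) ℓ μ mc
        (4 * (2 ^ (20 * m)) ^ n)) Qr F =
      cval (fam m k cd n S ℓ μ ((2 ^ (20 * m)) ^ n * ℓ)).P (visW ℓ) (hidS x y ℓ) R n 0 0
        (vend x y ((2 ^ (20 * m)) ^ n * ℓ)) + 1 ∧
      ((rd (fam m k cd n S ℓ μ ((2 ^ (20 * m)) ^ n * ℓ)).P
          (fam m k cd n S ℓ μ ((2 ^ (20 * m)) ^ n * ℓ)).mc (rndF m k n S F) (visW ℓ)
          (hidS x y ℓ) n 0 0 (fam m k cd n S ℓ μ ((2 ^ (20 * m)) ^ n * ℓ)).N).card ≤ Qr →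
        R = rd (fam m k cd n S ℓ μ ((2 ^ (20 * m)) ^ n * ℓ)).P
          (fam m k cd n S ℓ μ ((2 ^ (20 * m)) ^ n * ℓ)).mc (rndF m k n S F) (visW ℓ)
          (hidS x y ℓ) n 0 0 (fam m k cd n S ℓ μ ((2 ^ (20 * m)) ^ n * ℓ)).N)

/-- The output is small. -/
theorem fin_le (hV : ValSpec) {m k cd : ℕ} {F : List ℕ} {n S μ ℓ : ℕ}
    (hF : Q.M1.Fit m k F n S μ ℓ) (x y : List ℕ) {mc Qr : ℕ} (hmc : mc * μ = ℓ)
    (hx : F.getD 0 0 = x.length) (hy : F.getD 1 0 = y.length) :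
    (m1Strat m k cd).fin (H817.adAns (fun i => x.getD i 0) (fun i => y.getD i 0) ℓ μ mc
        (4 * (2 ^ (20 * m)) ^ n)) Qr F ≤
      (2 ^ (20 * m)) ^ n * ℓ + 2 * (x.length + (2 ^ (20 * m)) ^ n * ℓ) + 1 := by
  obtain ⟨R, h1, -⟩ := hV m k cd F n S μ ℓ hF x y mc Qr hmc hx hy
  rw [h1]
  have h2 := cval_le_lin (2 ^ (20 * m)) ℓ μ ((2 ^ (20 * m)) ^ n * ℓ) (2 ^ k - 1) (S + 1)
    (famH m n S) (fun i => x.getD i 0) (fun i => y.getD i 0) R n
    (vend x y ((2 ^ (20 * m)) ^ n * ℓ))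
  have h3 : vend x y ((2 ^ (20 * m)) ^ n * ℓ) ≤ x.length + (2 ^ (20 * m)) ^ n * ℓ := by
    unfold vend
    have : ((2 ^ (20 * m)) ^ n * ℓ - x.length - y.length) / 2 ≤ (2 ^ (20 * m)) ^ n * ℓ :=
      (Nat.div_le_self _ _).trans (by omega)
    omega
  have h4 : cval (fam m k cd n S ℓ μ ((2 ^ (20 * m)) ^ n * ℓ)).P (visW ℓ) (hidS x y ℓ) R n 0 0
        (vend x y ((2 ^ (20 * m)) ^ n * ℓ)) ≤
      (2 ^ (20 * m)) ^ n * ℓ + 2 * vend x y ((2 ^ (20 * m)) ^ n * ℓ) := h2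
  omega

section

variable {m k C0 h : ℕ} {hm : 1 ≤ m} {hC0 : 1 ≤ C0} {hh : 1 ≤ h}

/-- The run of the strategy is small. -/
theorem runOk_feed (hV : ValSpec) {cd q : ℕ} (hq : 1 ≤ q) (x y cs : List ℕ)
    (hcs : cs.length = ((cst m k C0 h hm hC0 hh).adF q).N (len2 x y))
    (hlt : ∀ v ∈ cs, v < ((cst m k C0 h hm hC0 hh).adF q).e (len2 x y)) :
    (m1Strat m k cd).RunOk (((cst m k C0 h hm hC0 hh).adF q).ans x y)
      (((cst m k C0 h hm hC0 hh).adF q).Q (len2 x y))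
      (((cst m k C0 h hm hC0 hh).adF q).pfx x y ++ cs)
      (m1Sz (6 + (cst m k C0 h hm hC0 hh).N ((cst m k C0 h hm hC0 hh).gg q (len2 x y)))
        ((cst m k C0 h hm hC0 hh).K ((cst m k C0 h hm hC0 hh).gg q (len2 x y)))
        ((cst m k C0 h hm hC0 hh).mc ((cst m k C0 h hm hC0 hh).gg q (len2 x y)))
        ((cst m k C0 h hm hC0 hh).cm * Cst.lg (x.length + y.length))
        ((cst m k C0 h hm hC0 hh).Q ((cst m k C0 h hm hC0 hh).gg q (len2 x y))))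
      (4 * (cst m k C0 h hm hC0 hh).K ((cst m k C0 h hm hC0 hh).gg q (len2 x y)) ^ 2)
      ((max x.length y.length + 2) ^
        (cst m k C0 h hm hC0 hh).c1 (CSz (cst m k C0 h hm hC0 hh))
          ((cst m k C0 h hm hC0 hh).aN + 6) 4 2) := by
  have hfits := Cst.fits (c := cst m k C0 h hm hC0 hh) (q := q) hq (x := x) (y := y)
    (CV := 4) (aV := 2)
    (Vb := 4 * (cst m k C0 h hm hC0 hh).K ((cst m k C0 h hm hC0 hh).gg q (len2 x y)) ^ 2)
    (m1Sz_le (cst m k C0 h hm hC0 hh) (x.length + y.length)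
      ((cst m k C0 h hm hC0 hh).gg q (len2 x y))) le_rfl
  have hmm : ((cst m k C0 h hm hC0 hh).adF q).m (len2 x y) =
      (cst m k C0 h hm hC0 hh).cm * Cst.lg (x.length + y.length) := Cst.adF_m _ _ _
  have hF := fit_feed (hm := hm) (hC0 := hC0) (hh := hh) (k := k) (x.length + y.length)
    ((cst m k C0 h hm hC0 hh).gg q (len2 x y)) x.length y.length cs (le_of_eq hcs.symm)
  have hfin := fin_le hV (cd := cd) hF x y (mc := (cst m k C0 h hm hC0 hh).mc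
    ((cst m k C0 h hm hC0 hh).gg q (len2 x y)))
    (Qr := (cst m k C0 h hm hC0 hh).Q ((cst m k C0 h hm hC0 hh).gg q (len2 x y)))
    rfl rfl rfl
  have hrun := m1_runOk (cd := cd) hF (fun i => x.getD i 0) (fun i => y.getD i 0)
    (mc := (cst m k C0 h hm hC0 hh).mc ((cst m k C0 h hm hC0 hh).gg q (len2 x y)))
    (b := (cst m k C0 h hm hC0 hh).cm * Cst.lg (x.length + y.length))
    (Q := (cst m k C0 h hm hC0 hh).Q ((cst m k C0 h hm hC0 hh).gg q (len2 x y)))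
    (R := (max x.length y.length + 2) ^
        (cst m k C0 h hm hC0 hh).c1 (CSz (cst m k C0 h hm hC0 hh))
          ((cst m k C0 h hm hC0 hh).aN + 6) 4 2) rfl ?_ ?_ ?_
  · rw [List.length_append, hcs] at hrun
    exact hrun
  · rw [← hmm]; exact hfits.hl
  · rw [← hmm]
    intro v hv
    rcases List.mem_append.mp hv with hv | hv
    · have h2 : v ∈ ((cst m k C0 h hm hC0 hh).adF q).pfx x y := hv
      unfold AdF.pfx at h2
      obtain ⟨f, hf, rfl⟩ := List.mem_map.mp h2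
      exact hfits.hpre f hf
    · exact (hlt v hv).trans_le hfits.e1
  · refine hfin.trans ?_
    refine Cst.pow_le_R (a := 13) (by omega) ?_
    have h1 := Cst.K_mul_ℓ_le' (c := cst m k C0 h hm hC0 hh) (x.length + y.length)
      ((cst m k C0 h hm hC0 hh).gg q (len2 x y))
    have h2 := Cst.K_le (c := cst m k C0 h hm hC0 hh) hq (x.length + y.length)
    have h3 : (cst m k C0 h hm hC0 hh).K ((cst m k C0 h hm hC0 hh).gg q (len2 x y)) ≤
      x.length + y.length + 1 := h2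
    have h4 : (cst m k C0 h hm hC0 hh).K ((cst m k C0 h hm hC0 hh).gg q (len2 x y)) ^ 2 ≤
      (x.length + y.length + 2) ^ 2 := Nat.pow_le_pow_left (by omega) 2
    have h5 : (2 ^ (20 * m)) ^ (cst m k C0 h hm hC0 hh).L ((cst m k C0 h hm hC0 hh).gg q
        (len2 x y)) * (cst m k C0 h hm hC0 hh).ℓ (x.length + y.length)
          ((cst m k C0 h hm hC0 hh).gg q (len2 x y)) ≤
        x.length + y.length + (x.length + y.length + 2) ^ 2 := h1.trans (by omega)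
    have h6 : 9 * (x.length + y.length + 2) ^ 2 ≤ (x.length + y.length + 2) ^ 13 := by
      rw [show 13 = 11 + 2 from rfl, pow_add]
      apply Nat.mul_le_mul_right
      calc 9 ≤ 2 ^ 11 := by norm_num
        _ ≤ _ := Nat.pow_le_pow_left (by omega) _
    have h7 : x.length + y.length + 2 ≤ (x.length + y.length + 2) ^ 2 := by
      rw [pow_two]; exact Nat.le_mul_of_pos_left _ (by omega)
    refine le_trans ?_ h6
    omega

end

theorem rndF_eq {m k n S : ℕ} {F : List ℕ} {a : ℕ → ℕ} (h : sd F = a) :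
    rndF m k n S F =
      rndOf n (2 ^ (20 * m)) (S + 1) (2 ^ (4 * m * 2 ^ S)) (2 ^ k - 1) a := by
  subst h; rfl

theorem sd_feedP {N e : ℕ} (a b c d f g : ℕ) (z : Fin N → Fin e) :
    sd (H873.feedP [a, b, c, d, f, g] z) = arrOf z := by
  funext i
  exact getD_feedP [a, b, c, d, f, g] z i

/-- The output for one vector of seeds. -/
theorem count_one (hV : ValSpec) {m k cd n S μ ℓ Qr Ns mc e : ℕ} {x y : List ℕ}
    (hfit : ∀ cs : List ℕ, Ns ≤ cs.length →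
      Q.M1.Fit m k ([x.length, y.length, n, S, μ, ℓ] ++ cs) n S μ ℓ) (hmc : mc * μ = ℓ)
    (z : Fin Ns → Fin e) : ∃ R : Finset (ℕ × ℕ),
      (m1Strat m k cd).fin (H817.adAns (fun i => x.getD i 0) (fun i => y.getD i 0) ℓ μ mc
        (4 * (2 ^ (20 * m)) ^ n)) Qr (H873.feedP [x.length, y.length, n, S, μ, ℓ] z) =
      cval (fam m k cd n S ℓ μ ((2 ^ (20 * m)) ^ n * ℓ)).P (visW ℓ) (hidS x y ℓ) R n 0 0
        (vend x y ((2 ^ (20 * m)) ^ n * ℓ)) + 1 ∧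
      ((rd (fam m k cd n S ℓ μ ((2 ^ (20 * m)) ^ n * ℓ)).P
          (fam m k cd n S ℓ μ ((2 ^ (20 * m)) ^ n * ℓ)).mc
          (rndOf n (2 ^ (20 * m)) (S + 1) (2 ^ (4 * m * 2 ^ S)) (2 ^ k - 1) (arrOf z)) (visW ℓ)
          (hidS x y ℓ) n 0 0 (fam m k cd n S ℓ μ ((2 ^ (20 * m)) ^ n * ℓ)).N).card ≤ Qr →
        R = rd (fam m k cd n S ℓ μ ((2 ^ (20 * m)) ^ n * ℓ)).P
          (fam m k cd n S ℓ μ ((2 ^ (20 * m)) ^ n * ℓ)).mc
          (rndOf n (2 ^ (20 * m)) (S + 1) (2 ^ (4 * m * 2 ^ S)) (2 ^ k - 1) (arrOf z)) (visW ℓ)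
          (hidS x y ℓ) n 0 0 (fam m k cd n S ℓ μ ((2 ^ (20 * m)) ^ n * ℓ)).N) := by
  have h := hV m k cd (H873.feedP [x.length, y.length, n, S, μ, ℓ] z) n S μ ℓ
    (hfit _ (le_of_eq (List.length_ofFn).symm)) x y mc Qr hmc rfl rfl
  rw [rndF_eq (sd_feedP _ _ _ _ _ _ z)] at h
  exact h

/-- **The additive theorem from the query theorem.** -/
theorem stmtAdd_of (hQT : StmtQT C.fam) (hV : ValSpec) : StmtAdd := by
  intro ε hε
  obtain ⟨m, k, cd, h, C0, hm, hh, hC0, hgood⟩ := good_of_QT hQT famBox hε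
  obtain ⟨k₂, hsolve⟩ := main_solves (m1Strat m k cd)
  obtain ⟨c, hc⟩ : ∃ c : Cst, c = cst m k C0 h hm hC0 hh := ⟨_, rfl⟩
  obtain ⟨q, hq⟩ : ∃ q : ℕ, q = max 3 (c.qmin k₂ (c.aN + 6)) := ⟨_, rfl⟩
  have hq3 : 3 ≤ q := hq ▸ le_max_left _ _
  have hqm : c.qmin k₂ (c.aN + 6) ≤ q := hq ▸ le_max_right _ _
  obtain ⟨N0, hN0⟩ := hgood (2 * h) q (by omega) hq3
  have hS : ∀ x y : List ℕ, m1Sz (6 + c.N (c.gg q (len2 x y))) (c.K (c.gg q (len2 x y)))
      (c.mc (c.gg q (len2 x y))) (c.cm * Cst.lg (x.length + y.length))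
      (c.Q (c.gg q (len2 x y))) ≤
      CSz c * (c.K (c.gg q (len2 x y)) * Cst.lg (x.length + y.length)) ^ (c.aN + 6) :=
    fun x y => m1Sz_le c _ _
  have hfits := fun x y : List ℕ => Cst.fits (c := c) (q := q) (by omega) (x := x) (y := y)
    (CV := 4) (aV := 2) (Vb := 4 * c.K (c.gg q (len2 x y)) ^ 2) (hS x y) le_rfl
  obtain ⟨k₁, hk₁⟩ := hsolve (c.adF q) (N0 + 1) (c.c1 (CSz c) (c.aN + 6) 4 2)
    (fun x y => m1Sz (6 + c.N (c.gg q (len2 x y))) (c.K (c.gg q (len2 x y)))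
      (c.mc (c.gg q (len2 x y))) (c.cm * Cst.lg (x.length + y.length))
      (c.Q (c.gg q (len2 x y))))
    (fun x y => 4 * c.K (c.gg q (len2 x y)) ^ 2) (by omega) (fun x y _ => hfits x y)
    (fun x y _ => c.adF_e_eq q _) (fun x y _ cs hcs hlt => by
      subst hc
      exact runOk_feed hV (by omega) x y cs hcs hlt)
  obtain ⟨δ, C, hδ, hδ1, hcost, hsmall⟩ := c.cost_final hqm k₁ (CSz c) (N0 + 1)
  refine ⟨δ, hδ, C, ?_⟩
  obtain ⟨P, kk, hP⟩ := hk₁ (fun x y D => ED x y ≤ D ∧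
      (D : ℝ) ≤ ED x y + ε * ((max x.length y.length : ℕ) : ℝ))
    (fun n => C * ((n : ℝ) + 1) ^ (2 - δ)) (fun x y _ => hcost x y _ (hS x y)) hsmall
    (fun x y => ⟨le_rfl, by
      have : (0 : ℝ) ≤ ((max x.length y.length : ℕ) : ℝ) := Nat.cast_nonneg _
      nlinarith⟩) (fun x y hn => by
      subst hc
      have hN : N0 ≤ x.length + y.length := by
        have := max_le (Nat.le_add_right x.length y.length) (Nat.le_add_left y.length x.length)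
        omega
      refine hN0 x y ((cst m k C0 h hm hC0 hh).L ((cst m k C0 h hm hC0 hh).gg q (len2 x y)))
        ((cst m k C0 h hm hC0 hh).S ((cst m k C0 h hm hC0 hh).gg q (len2 x y)))
        ((cst m k C0 h hm hC0 hh).μ (x.length + y.length)
          ((cst m k C0 h hm hC0 hh).gg q (len2 x y)))
        ((cst m k C0 h hm hC0 hh).ℓ (x.length + y.length)
          ((cst m k C0 h hm hC0 hh).gg q (len2 x y)))
        ((cst m k C0 h hm hC0 hh).Q ((cst m k C0 h hm hC0 hh).gg q (len2 x y)))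
        ((cst m k C0 h hm hC0 hh).N ((cst m k C0 h hm hC0 hh).gg q (len2 x y))) hN rfl rfl rfl
        rfl rfl _ rfl (Cst.Nu_le_N _) (fun z =>
          (m1Strat m k cd).fin (((cst m k C0 h hm hC0 hh).adF q).ans x y)
            (((cst m k C0 h hm hC0 hh).adF q).Q (len2 x y))
            (H873.feedP (((cst m k C0 h hm hC0 hh).adF q).pfx x y) z)) (fun z => ?_)
      exact count_one hV (fun cs hcs => fit_feed (x.length + y.length) _ _ _ cs hcs) rfl z)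
  exact ⟨kk, P, hP⟩

end Vale.Agent.P315.Top
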