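import Vale.Agent.P315.Top.Fin2
import Vale.Agent.P315.H177.Hand
import Vale.Agent.P315.H508.QTFin

/-!
P315: **the additive theorem** `StmtAdd`.
-/

set_option autoImplicit false

namespace Vale.Agent.P315.Top

open Vale.Agent.P315

/-- **Additive approximation of the edit distance in truly subquadratic time.** -/
theorem stmtAdd : StmtAdd := stmtAdd_of_QT H508.stmtQT_fam

end Vale.Agent.P315.Top
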