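import Vale.Agent.P315.Top.AssembleMul
import Vale.Agent.P315.H838.Final2

/-! P315: the multiplicative theorem. -/

set_option autoImplicit false

namespace Vale.Agent.P315.Top

/-- **Truly subquadratic `(1 + ε)`-approximation of the edit distance**, for every `ε > 0`. -/
theorem stmtMul : StmtMul := stmtMul_of Fin2.stmtQT2

end Vale.Agent.P315.Top
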